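import Vale.Agent.P086.Key

/-! One stage of the approximation: all group elements are approximated by words in three
generators after a small perturbation. -/

set_option linter.unusedSectionVars false

namespace Vale.Agent.P086

open Finset Filter Topology
open scoped InnerProductSpace

theorem exists_std_of_aut {G : Type} [Group G] (s s' : G →* G) (h1 : ∀ g, s (s' g) = g)
    (h2 : ∀ g, s' (s g) = g) :
    ∃ V : L2 G ≃ₗᵢ[ℂ] L2 G, IsStd V ∧ ∀ g, V.conjStarAlgEquiv (lam g) = lam (s g) := by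
  refine exists_transfer (lam.comp s) (fun g => lam_mem_vN _) (fun g => ?_) (fun g hg => ?_)
    (fun ξ hξ => ?_)
  · simp only [MonoidHom.comp_apply, star_lam, map_inv]
  · rw [MonoidHom.comp_apply, tr_lam, if_neg]
    intro h
    exact hg (by rw [← h2 g, h, map_one])
  · refine lp.ext (funext fun g => ?_)
    have := hξ (s' g)
    rw [MonoidHom.comp_apply, h1, lam_dl, mul_one, inner_dl_left] at this
    exact this

theorem IsStd.apply_dl {G G' : Type} [Group G] [Group G'] {W : L2 G' ≃ₗᵢ[ℂ] L2 G} (hW : IsStd W)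
    (g : G') : W (dl g) = W.conjStarAlgEquiv (lam g) (dl 1) := by
  rw [hW.conj_apply, lam_dl, mul_one]

theorem key1 {ε : ℝ} (hε : 0 < ε) :
    ∃ W : L2 G4 ≃ₗᵢ[ℂ] L2 G4, IsStd W ∧ ∃ w : G3,
      (∀ j : Fin 3, ‖W.conjStarAlgEquiv (lam (inc (FreeGroup.of j))) - lam (inc (FreeGroup.of j))‖
        ≤ ε) ∧ ‖W (dl (inc w)) - dl vv‖ ≤ ε := by
  obtain ⟨W, hW, w, h1, h2⟩ := key0 hε
  obtain ⟨V, hV, hVg⟩ := exists_std_of_aut (ext4 inc (vv * (inc w)⁻¹)) (ext4 inc (vv * inc w))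
    (fun g => DFunLike.congr_fun (hom4_ext (f := (ext4 inc (vv * (inc w)⁻¹)).comp
      (ext4 inc (vv * inc w))) (g := MonoidHom.id _) (fun x => by simp [ext4_inc])
      (by simp [ext4_inc, ext4_vv])) g)
    (fun g => DFunLike.congr_fun (hom4_ext (f := (ext4 inc (vv * inc w)).comp
      (ext4 inc (vv * (inc w)⁻¹))) (g := MonoidHom.id _) (fun x => by simp [ext4_inc])
      (by simp [ext4_inc, ext4_vv])) g)
  refine ⟨W.trans V, hW.trans hV, w, fun j => ?_, ?_⟩
  · have := hVg (inc (FreeGroup.of j))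
    rw [ext4_inc] at this
    rw [conj_trans]
    nth_rewrite 2 [← this]
    rw [← map_sub, norm_conj, inc_of]
    exact h1 _
  · have : V (dl (vv * inc w)) = dl vv := by
      rw [hV.apply_dl, hVg, lam_dl, map_mul, ext4_vv, ext4_inc]
      simp
    rw [LinearIsometryEquiv.trans_apply, ← this, ← map_sub, LinearIsometryEquiv.norm_map]
    exact h2

theorem exists_word_const {α : Type} (γ : FreeGroup α) :
    ∃ C : ℝ, 0 ≤ C ∧ ∀ (d : FreeGroup α → ℝ) (ε : ℝ), d 1 ≤ 0 → (∀ g h, d (g * h) ≤ d g + d h) →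
      (∀ g, d g⁻¹ ≤ d g) → (∀ j, d (FreeGroup.of j) ≤ ε) → d γ ≤ C * ε := by
  induction γ using FreeGroup.induction_on with
  | C1 => exact ⟨0, le_rfl, fun d ε h _ _ _ => by rwa [zero_mul]⟩
  | of j => exact ⟨1, zero_le_one, fun d ε _ _ _ h => by rw [one_mul]; exact h j⟩
  | inv_of j _ =>
    exact ⟨1, zero_le_one, fun d ε _ _ h' h => by rw [one_mul]; exact (h' _).trans (h j)⟩
  | mul x y hx hy =>
    obtain ⟨C, hC, h1⟩ := hx
    obtain ⟨D, hD, h2⟩ := hy
    refine ⟨C + D, add_nonneg hC hD, fun d ε a b c e => ?_⟩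
    rw [add_mul]
    exact (b _ _).trans (add_le_add (h1 d ε a b c e) (h2 d ε a b c e))

theorem word_bound {α : Type} (γ : FreeGroup α) :
    ∃ C : ℝ, 0 ≤ C ∧ ∀ (π : FreeGroup α →* Bdd (L2 (FreeGroup α))) (ε : ℝ),
      (∀ g, π g ∈ vN (FreeGroup α)) → (∀ g, π g ∈ unitary (Bdd (L2 (FreeGroup α)))) →
      (∀ j, ‖π (FreeGroup.of j) (dl 1) - dl (FreeGroup.of j)‖ ≤ ε) →
      ‖π γ (dl 1) - dl γ‖ ≤ C * ε := by
  obtain ⟨C, hC, h⟩ := exists_word_const γ
  refine ⟨C, hC, fun π ε hM hU hj => h (fun g => ‖π g (dl 1) - dl g‖) ε ?_ ?_ ?_ hj⟩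
  · simp
  · intro g h
    have e : π (g * h) (dl 1) - dl (g * h)
        = (π g - lam g) (dl h) + π g (π h (dl 1) - dl h) := by
      rw [map_mul, mul_apply_eq_comp, sub_apply, map_sub, lam_dl]
      abel
    rw [e]
    refine (norm_add_le _ _).trans (le_of_eq ?_)
    rw [norm_vN_apply_dl (sub_mem (hM g) (lam_mem_vN g)), norm_unitary_apply (hU g), sub_apply,
      lam_dl, mul_one]
  · intro g
    have e : π g⁻¹ (dl 1) - dl g⁻¹ = -π g⁻¹ ((π g - lam g) (dl g⁻¹)) := by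
      rw [sub_apply, map_sub, lam_dl, mul_inv_cancel, ← mul_apply_eq_comp, ← map_mul,
        inv_mul_cancel, map_one, neg_sub]
      rfl
    rw [e, norm_neg, norm_unitary_apply (hU _), norm_vN_apply_dl (sub_mem (hM g) (lam_mem_vN g)),
      sub_apply, lam_dl, mul_one]

theorem stage {U : L2 G4 ≃ₗᵢ[ℂ] L2 G4} (hU : IsStd U) (ξ : L2 G4) {ε : ℝ} (hε : 0 < ε) :
    ∃ U' : L2 G4 ≃ₗᵢ[ℂ] L2 G4, IsStd U' ∧
      (∀ j : Fin 3, ‖U'.conjStarAlgEquiv (lam (inc (FreeGroup.of j)))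
        - U.conjStarAlgEquiv (lam (inc (FreeGroup.of j)))‖ < ε) ∧
      ∃ (s : Finset G4) (r : G4 → ℂ) (q : G4 → G3),
        ‖ξ - ∑ γ ∈ s, r γ • U' (dl (inc (q γ)))‖ < ε := by
  obtain ⟨s, hs⟩ := ((Metric.tendsto_nhds.1 (hasSum_dl (U.symm ξ))) (ε / 2)
    (by positivity)).exists
  choose C hC0 hC using word_bound (α := Fin 4)
  set r : G4 → ℂ := fun γ => U.symm ξ γ with hr
  set S : ℝ := ∑ γ ∈ s, ‖r γ‖ * C γ with hS
  have hS0 : 0 ≤ S := sum_nonneg fun γ _ => mul_nonneg (norm_nonneg _) (hC0 γ)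
  have hδ : 0 < ε / 2 / (S + 1) := by positivity
  have hδ1 : ε / 2 / (S + 1) < ε := by
    rw [div_lt_iff₀ (by positivity)]
    nlinarith
  have hδ2 : S * (ε / 2 / (S + 1)) ≤ ε / 2 := by
    rw [mul_div_assoc', div_le_iff₀ (by positivity)]
    nlinarith
  obtain ⟨W, hW, w, h1, h2⟩ := key1 hδ
  set q : G4 →* G3 := ext4 (MonoidHom.id G3) w with hq
  refine ⟨W.trans U, hW.trans hU, fun j => ?_, s, r, q, ?_⟩
  · rw [conj_trans, ← map_sub, norm_conj]
    exact (h1 j).trans_lt hδ1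
  · set π : G4 →* Bdd (L2 G4) :=
      (W.conjStarAlgEquiv : Bdd (L2 G4) →* Bdd (L2 G4)).comp (lam.comp (inc.comp q)) with hπ
    have hπ' : ∀ g, π g = W.conjStarAlgEquiv (lam (inc (q g))) := fun g => rfl
    have k : ∀ γ, ‖W (dl (inc (q γ))) - dl γ‖ ≤ C γ * (ε / 2 / (S + 1)) := by
      intro γ
      rw [hW.apply_dl, ← hπ']
      refine hC γ π _ (fun g => (hW.2 _).2 (lam_mem_vN _))
        (mem_unitary_of_star π fun g => ?_) fun j => ?_
      · rw [hπ', hπ', ← map_star, star_lam, map_inv q, map_inv inc]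
      · induction j using Fin.lastCases with
        | last =>
          rw [hπ', ← hW.apply_dl]
          change ‖W (dl (inc (q vv))) - dl vv‖ ≤ _
          rw [hq, ext4_vv]
          exact h2
        | cast j =>
          rw [hπ', ← inc_of, hq, ext4_inc, MonoidHom.id_apply]
          have := (W.conjStarAlgEquiv (lam (inc (FreeGroup.of j)))
            - lam (inc (FreeGroup.of j))).le_opNorm (dl 1)
          rw [norm_dl, mul_one, sub_apply, lam_dl, mul_one] at this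
          exact this.trans (h1 j)
    have e : ξ - ∑ γ ∈ s, r γ • (W.trans U) (dl (inc (q γ)))
        = U (-(∑ γ ∈ s, r γ • dl γ - U.symm ξ) - ∑ γ ∈ s, r γ • (W (dl (inc (q γ))) - dl γ)) := by
      simp only [smul_sub, sum_sub_distrib, neg_sub, map_sub, map_sum, map_smul,
        LinearIsometryEquiv.apply_symm_apply, LinearIsometryEquiv.trans_apply]
      abel
    rw [e, LinearIsometryEquiv.norm_map]
    refine (norm_sub_le _ _).trans_lt ?_
    rw [norm_neg]
    rw [dist_eq_norm] at hs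
    have : ‖∑ γ ∈ s, r γ • (W (dl (inc (q γ))) - dl γ)‖ ≤ S * (ε / 2 / (S + 1)) := by
      rw [hS, sum_mul]
      refine (norm_sum_le _ _).trans (sum_le_sum fun γ _ => ?_)
      rw [norm_smul, mul_assoc]
      exact mul_le_mul_of_nonneg_left (k γ) (norm_nonneg _)
    linarith

end Vale.Agent.P086
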