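import Mathlib

namespace Vale.Agent.P086

/-- The Hilbert space `ℓ²(G)`. -/
abbrev L2 (G : Type) : Type := lp (fun _ : G => ℂ) 2

/-- The algebra `B(H)` of bounded operators on a Hilbert space. -/
abbrev Bdd (H : Type) [NormedAddCommGroup H] [InnerProductSpace ℂ H] : Type := H →L[ℂ] H

theorem mem_translate {G : Type} [Group G] (g : G) (ξ : L2 G) :
    Memℓp (fun h : G => ξ (g⁻¹ * h)) 2 :=
  memℓp_gen ((Equiv.mulLeft g⁻¹).summable_iff.2 ((lp.memℓp ξ).summable (by norm_num)))

/-- The vector `h ↦ ξ (g⁻¹ h)`. -/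
def translate {G : Type} [Group G] (g : G) (ξ : L2 G) : L2 G :=
  ⟨fun h => ξ (g⁻¹ * h), mem_translate g ξ⟩

theorem isBoundedLinearMap_translate {G : Type} [Group G] (g : G) :
    IsBoundedLinearMap ℂ (translate g : L2 G → L2 G) where
  map_add _ _ := rfl
  map_smul _ _ := rfl
  bound := ⟨1, one_pos, fun ξ => by
    rw [one_mul, lp.norm_eq_tsum_rpow (by norm_num), lp.norm_eq_tsum_rpow (by norm_num)]
    apply le_of_eq
    congr 1
    exact (Equiv.mulLeft g⁻¹).tsum_eq fun h => ‖ξ h‖ ^ (2 : ENNReal).toReal⟩

/-- The left regular representation: `(λ(g) ξ)(h) = ξ (g⁻¹ h)`. -/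
noncomputable def leftReg {G : Type} [Group G] (g : G) : Bdd (L2 G) :=
  (isBoundedLinearMap_translate g).toContinuousLinearMap

/-- The double commutant `s''` (of `s` together with its adjoints) in a star algebra. -/
def bicomm {A : Type} [Semiring A] [StarRing A] [Algebra ℂ A] [StarModule ℂ A]
    (s : Set A) : StarSubalgebra ℂ A :=
  StarSubalgebra.centralizer ℂ (StarSubalgebra.centralizer ℂ s : Set A)

/-- The double commutant `s''` of a set of bounded operators, as a von Neumann algebra. -/
noncomputable def bicommutant {H : Type} [NormedAddCommGroup H] [InnerProductSpace ℂ H]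
    [CompleteSpace H] (s : Set (Bdd H)) : VonNeumannAlgebra H where
  toStarSubalgebra := bicomm s
  centralizer_centralizer' := by simp [bicomm]

/-- The group von Neumann algebra `L(G) = λ(G)''`. -/
noncomputable def groupVN (G : Type) [Group G] : VonNeumannAlgebra (L2 G) :=
  bicommutant (Set.range leftReg)

/-- Two star subalgebras are star isomorphic. -/
def StarIso {A B : Type} [Semiring A] [StarRing A] [Algebra ℂ A] [StarModule ℂ A]
    [Semiring B] [StarRing B] [Algebra ℂ B] [StarModule ℂ B]
    (M : StarSubalgebra ℂ A) (N : StarSubalgebra ℂ B) : Prop :=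
  Nonempty (M ≃⋆ₐ[ℂ] N)

/-- Two von Neumann algebras are star isomorphic. -/
def VNIso {H K : Type} [NormedAddCommGroup H] [InnerProductSpace ℂ H] [CompleteSpace H]
    [NormedAddCommGroup K] [InnerProductSpace ℂ K] [CompleteSpace K]
    (M : VonNeumannAlgebra H) (N : VonNeumannAlgebra K) : Prop :=
  StarIso M.toStarSubalgebra N.toStarSubalgebra

end Vale.Agent.P086
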