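import Vale.Agent.P086.Transfer

/-! A Haar unitary is close in `L²` to the exponential of a skew trigonometric polynomial. -/

set_option linter.unusedSectionVars false

namespace Vale.Agent.P086

open scoped InnerProductSpace
open Finset Filter Topology

/-- A purely imaginary trigonometric polynomial. -/
noncomputable def trig (n : ℕ) (r : ℕ → ℝ) (z : ℂ) : ℂ :=
  ∑ j ∈ range n, (r j : ℂ) * (z ^ j - star z ^ j)

theorem continuous_trig (n : ℕ) (r : ℕ → ℝ) : Continuous (trig n r) := by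
  unfold trig
  fun_prop

theorem trig_re (n : ℕ) (r : ℕ → ℝ) (z : ℂ) : (trig n r z).re = 0 := by
  unfold trig
  rw [Complex.re_sum]
  refine Finset.sum_eq_zero fun j _ => ?_
  rw [Complex.re_ofReal_mul, ← star_pow, Complex.sub_re, Complex.star_def, Complex.conj_re,
    sub_self, mul_zero]

theorem norm_trig_le (n : ℕ) (r : ℕ → ℝ) {z : ℂ} (hz : ‖z‖ = 1) :
    ‖trig n r z‖ ≤ ∑ j ∈ range n, 2 * |r j| := by
  refine (norm_sum_le _ _).trans (Finset.sum_le_sum fun j _ => ?_)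
  rw [norm_mul, Complex.norm_real, Real.norm_eq_abs, mul_comm]
  gcongr
  refine (norm_sub_le _ _).trans ?_
  rw [norm_pow, norm_pow, norm_star, hz]
  norm_num

theorem exists_trig {κ : ℝ} (h0 : 0 ≤ κ) (h1 : κ < 1) :
    ∃ (n : ℕ) (r : ℕ → ℝ), ∀ z : ℂ, ‖z‖ = 1 →
      ‖(Complex.exp (trig n r z) - z) * (1 + κ * star z)‖ ≤ 3 * (1 - κ) := by
  have hd : 0 < 1 - κ := by linarith
  obtain ⟨n, hn⟩ := exists_nat_gt (8 * (1 - κ)⁻¹ ^ 2)
  refine ⟨n + 1, fun j => (-1) ^ (j + 1) * κ ^ j / j, fun z hz => ?_⟩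
  have key : ∀ u : ℂ, ‖u‖ = 1 →
      ‖Complex.log (1 + κ * u) - Complex.logTaylor (n + 1) (κ * u)‖ ≤ (1 - κ) / 8 := by
    intro u hu
    have hn' : ‖(κ : ℂ) * u‖ = κ := by simp [hu, abs_of_nonneg h0]
    refine (Complex.norm_log_sub_logTaylor_le n (by rw [hn']; exact h1)).trans ?_
    rw [hn', div_le_div_iff₀ (by positivity) (by norm_num)]
    have a1 : κ ^ (n + 1) ≤ 1 := pow_le_one₀ h0 h1.le
    have a2 : 0 < (1 - κ)⁻¹ := inv_pos.2 hd
    have a3 : (1 - κ) * (1 - κ)⁻¹ = 1 := mul_inv_cancel₀ hd.ne'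
    calc κ ^ (n + 1) * (1 - κ)⁻¹ * 8 ≤ 1 * (1 - κ)⁻¹ * 8 := by gcongr
      _ = (1 - κ) * (8 * (1 - κ)⁻¹ ^ 2) := by rw [pow_two]; linear_combination (-8 * (1 - κ)⁻¹) * a3
      _ ≤ (1 - κ) * (n + 1) := by gcongr; linarith
  have ne : ∀ u : ℂ, ‖u‖ = 1 → 1 + κ * u ≠ 0 := by
    intro u hu h
    have : ‖(κ : ℂ) * u‖ = 1 := by rw [eq_neg_of_add_eq_zero_right h]; simp
    simp only [norm_mul, Complex.norm_real, Real.norm_eq_abs, hu, mul_one, abs_of_nonneg h0] at this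
    linarith
  have hz' : ‖star z‖ = 1 := by rw [norm_star, hz]
  have e1 : trig (n + 1) (fun j => (-1) ^ (j + 1) * κ ^ j / j) z
      = Complex.logTaylor (n + 1) (κ * z) - Complex.logTaylor (n + 1) (κ * star z) := by
    unfold trig Complex.logTaylor
    rw [← Finset.sum_sub_distrib]
    refine Finset.sum_congr rfl fun j _ => ?_
    push_cast
    ring
  set e : ℂ := (Complex.log (1 + κ * star z) - Complex.logTaylor (n + 1) (κ * star z))
    - (Complex.log (1 + κ * z) - Complex.logTaylor (n + 1) (κ * z)) with he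
  have he1 : ‖e‖ ≤ (1 - κ) / 4 := (norm_sub_le _ _).trans (by linarith [key z hz, key _ hz'])
  have e2 : Complex.exp (trig (n + 1) (fun j => (-1) ^ (j + 1) * κ ^ j / j) z) * (1 + κ * star z)
      = Complex.exp e * (1 + κ * z) := by
    conv_lhs => rw [← Complex.exp_log (ne _ hz')]
    conv_rhs => rw [← Complex.exp_log (ne _ hz)]
    rw [← Complex.exp_add, ← Complex.exp_add, e1, he]
    congr 1
    ring
  have e3 : z * star z = 1 := by
    rw [Complex.star_def, Complex.mul_conj, Complex.normSq_eq_norm_sq, hz]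
    simp
  have e4 : (Complex.exp (trig (n + 1) (fun j => (-1) ^ (j + 1) * κ ^ j / j) z) - z)
      * (1 + κ * star z) = (Complex.exp e - 1) * (1 + κ * z) + ((1 - κ : ℝ) : ℂ) * (1 - z) := by
    rw [sub_mul, e2]
    push_cast
    linear_combination (-κ) * e3
  rw [e4]
  refine (norm_add_le _ _).trans ?_
  rw [norm_mul, norm_mul, Complex.norm_real, Real.norm_eq_abs, abs_of_pos hd]
  have b1 := Complex.norm_exp_sub_one_le (x := e) (by linarith)
  have b2 : ‖1 + κ * z‖ ≤ 2 := by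
    refine (norm_add_le _ _).trans ?_
    simp only [norm_one, norm_mul, Complex.norm_real, Real.norm_eq_abs, hz, mul_one,
      abs_of_nonneg h0]
    linarith
  have b3 : ‖1 - z‖ ≤ 2 := by
    refine (norm_sub_le _ _).trans ?_
    rw [norm_one, hz]
    norm_num
  have b4 : ‖Complex.exp e - 1‖ * ‖1 + κ * z‖ ≤ (1 - κ) / 2 * 2 :=
    mul_le_mul (by linarith) b2 (norm_nonneg _) (by linarith)
  have b5 : (1 - κ) * ‖1 - z‖ ≤ (1 - κ) * 2 := by gcongr
  linarith

variable {G : Type} [Group G]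

theorem norm_resolvent {v : G} (hv : ∀ k : ℕ, k ≠ 0 → v ^ k ≠ 1) {κ : ℝ} (h0 : 0 ≤ κ) (h1 : κ < 1)
    (ζ : L2 G) (hζ : ζ + (κ : ℂ) • lam v⁻¹ ζ = dl 1) : ‖ζ‖ ^ 2 * (1 - κ ^ 2) = 1 := by
  classical
  have p1 : ∀ g, ζ g + κ * ζ (v * g) = if g = 1 then 1 else 0 := by
    intro g
    have := congrArg (fun ξ : L2 G => ξ g) hζ
    simp only [lp.coeFn_add, lp.coeFn_smul, Pi.add_apply, Pi.smul_apply, lam_apply, dl_apply,
      inv_inv, smul_eq_mul] at this
    exact this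
  have p2 : ∀ j : ℕ, ‖ζ v‖ = κ ^ j * ‖ζ (v ^ (j + 1))‖ := by
    intro j
    induction j with
    | zero => simp
    | succ j ih =>
      have := p1 (v ^ (j + 1))
      rw [if_neg (hv _ (by omega)), ← pow_succ'] at this
      rw [ih, eq_neg_of_add_eq_zero_left this, norm_neg, norm_mul, Complex.norm_real,
        Real.norm_eq_abs, abs_of_nonneg h0, pow_succ]
      ring
  have p3 : ζ v = 0 := by
    have t1 : Tendsto (fun j : ℕ => κ ^ j * ‖ζ‖) atTop (𝓝 (0 * ‖ζ‖)) :=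
      (tendsto_pow_atTop_nhds_zero_of_lt_one h0 h1).mul_const _
    rw [zero_mul] at t1
    have : ‖ζ v‖ ≤ 0 := ge_of_tendsto' t1 fun j => by
      rw [p2 j]
      gcongr
      exact lp.norm_apply_le_norm (by norm_num) _ _
    exact norm_le_zero_iff.1 this
  have p4 : ζ 1 = 1 := by simpa [p3] using p1 1
  have p5 : (κ : ℂ) • lam v⁻¹ ζ = dl 1 - ζ := by rw [← hζ]; abel
  have p6 := congrArg (fun ξ : L2 G => ‖ξ‖ ^ 2) p5
  rw [norm_smul, norm_unitary_apply (lam_mem_unitary _), @norm_sub_sq ℂ, norm_dl, inner_dl_left,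
    p4, Complex.norm_real, Real.norm_eq_abs, abs_of_nonneg h0] at p6
  simp only [RCLike.one_re] at p6
  nlinarith

section CStar

variable {A : Type} [CStarAlgebra A] {V : A}

theorem cfc_trig (hV : IsStarNormal V) (n : ℕ) (r : ℕ → ℝ) :
    cfc (trig n r) V = ∑ j ∈ range n, (r j : ℂ) • (V ^ j - star V ^ j) := by
  have : trig n r = ∑ j ∈ range n, fun z : ℂ => (r j : ℂ) * (z ^ j - star z ^ j) := by
    funext z
    simp [trig]
  rw [this, cfc_sum _ _ _ (fun j _ => by fun_prop)]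
  refine Finset.sum_congr rfl fun j _ => ?_
  rw [cfc_const_mul .., cfc_sub .., cfc_pow_id .., cfc_pow .., cfc_star_id ..]

/-- The one-parameter group generated by a skew trigonometric polynomial. -/
noncomputable def ex (n : ℕ) (r : ℕ → ℝ) (V : A) (t : ℝ) : A :=
  cfc (fun z => Complex.exp (t * trig n r z)) V

theorem norm_ex_le (n : ℕ) (r : ℕ → ℝ) (V : A) (t : ℝ) : ‖ex n r V t‖ ≤ 1 := by
  refine norm_cfc_le zero_le_one fun z _ => ?_
  rw [Complex.norm_exp, Complex.re_ofReal_mul, trig_re]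
  simp

theorem ex_pow (hV : IsStarNormal V) (n : ℕ) (r : ℕ → ℝ) (t : ℝ) (N : ℕ) :
    ex n r V t ^ N = ex n r V (N * t) := by
  have hct := continuous_trig n r
  unfold ex
  rw [← cfc_pow ..]
  congr 1
  funext z
  rw [← Complex.exp_nat_mul]
  push_cast
  ring_nf

theorem norm_ex_sub_le (hV : V ∈ unitary A) (n : ℕ) (r : ℕ → ℝ) {t : ℝ} (ht0 : 0 ≤ t)
    (ht : t * ∑ j ∈ range n, 2 * |r j| ≤ 1) :
    ‖ex n r V t - 1 - (t : ℂ) • cfc (trig n r) V‖ ≤ (∑ j ∈ range n, 2 * |r j|) ^ 2 * t ^ 2 := by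
  have hct := continuous_trig n r
  have hN : IsStarNormal V := isStarNormal_of_mem_unitary hV
  unfold ex
  rw [← cfc_const_mul .., ← cfc_const_one ℂ V, ← cfc_sub .., ← cfc_sub ..]
  refine norm_cfc_le (by positivity) fun z hz => ?_
  have b1 : ‖(t : ℂ) * trig n r z‖ ≤ t * ∑ j ∈ range n, 2 * |r j| := by
    rw [norm_mul, Complex.norm_real, Real.norm_eq_abs, abs_of_nonneg ht0]
    gcongr
    exact norm_trig_le n r (spectrum.norm_eq_one_of_unitary hV hz)
  refine (Complex.norm_exp_sub_one_sub_id_le (b1.trans ht)).trans ?_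
  rw [← mul_pow, mul_comm _ t]
  gcongr

theorem map_ex (hV : IsStarNormal V) (n : ℕ) (r : ℕ → ℝ) (t : ℝ) (φ : A ≃⋆ₐ[ℂ] A) (h : φ V = V) :
    φ (ex n r V t) = ex n r V t := by
  have hct := continuous_trig n r
  unfold ex
  rw [StarAlgHomClass.map_cfc (S := ℂ) φ _ V (by fun_prop)
    (StarAlgEquiv.isometry _).continuous hV (by rw [h]; exact hV), h]

theorem exists_factor (hV : V ∈ unitary A) {κ : ℝ} (h0 : 0 ≤ κ) (h1 : κ < 1) :
    ∃ (n : ℕ) (r : ℕ → ℝ) (P Q : A), ex n r V 1 - V = P * Q ∧ ‖P‖ ≤ 3 * (1 - κ) ∧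
      (1 + (κ : ℂ) • star V) * Q = 1 := by
  obtain ⟨n, r, hnr⟩ := exists_trig h0 h1
  have hct := continuous_trig n r
  have hN : IsStarNormal V := isStarNormal_of_mem_unitary hV
  have hsp : ∀ z ∈ spectrum ℂ V, ‖z‖ = 1 := spectrum.norm_eq_one_of_unitary hV
  have ne : ∀ u ∈ spectrum ℂ V, 1 + κ * star u ≠ 0 := by
    intro u hu h
    have : ‖(κ : ℂ) * star u‖ = 1 := by rw [eq_neg_of_add_eq_zero_right h]; simp
    simp only [norm_mul, Complex.norm_real, Real.norm_eq_abs, norm_star, hsp u hu, mul_one,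
      abs_of_nonneg h0] at this
    linarith
  have hc : ContinuousOn (fun z : ℂ => (1 + κ * star z)⁻¹) (spectrum ℂ V) :=
    ContinuousOn.inv₀ (by fun_prop) ne
  refine ⟨n, r, cfc (fun z => (Complex.exp (trig n r z) - z) * (1 + κ * star z)) V,
    cfc (fun z : ℂ => (1 + κ * star z)⁻¹) V, ?_,
    norm_cfc_le (by linarith) fun z hz => hnr z (hsp z hz), ?_⟩
  · have e : ex n r V 1 - V = cfc (fun z => Complex.exp (((1 : ℝ) : ℂ) * trig n r z) - z) V := by
      rw [cfc_sub .., cfc_id' ..]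
      rfl
    rw [e, ← cfc_mul _ _ _ (by fun_prop) hc]
    refine cfc_congr fun z hz => ?_
    simp only [Complex.ofReal_one, one_mul]
    rw [mul_assoc, mul_inv_cancel₀ (ne z hz), mul_one]
  · have : (1 + (κ : ℂ) • star V) = cfc (fun z : ℂ => 1 + κ * star z) V := by
      rw [cfc_const_add .., cfc_const_mul .., cfc_star_id .., map_one]
    rw [this, ← cfc_mul _ _ _ (by fun_prop) hc, ← cfc_const_one ℂ V]
    exact cfc_congr fun z hz => mul_inv_cancel₀ (ne z hz)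

end CStar

theorem exists_circle {v : G} (hv : ∀ k : ℕ, k ≠ 0 → v ^ k ≠ 1) {ε : ℝ} (hε : 0 < ε) :
    ∃ (n : ℕ) (r : ℕ → ℝ), ‖(ex n r (lam v) 1 - lam v) (dl 1)‖ ≤ ε := by
  obtain ⟨d, hd0, hd1, hd2⟩ : ∃ d : ℝ, 0 < d ∧ d ≤ 1 / 2 ∧ d ≤ ε ^ 2 / 9 :=
    ⟨min (1 / 2) (ε ^ 2 / 9), lt_min (by norm_num) (by positivity), min_le_left _ _,
      min_le_right _ _⟩
  have h0 : 0 ≤ 1 - d := by linarith
  have h1 : 1 - d < 1 := by linarith
  obtain ⟨n, r, P, Q, e, hP, hQ⟩ := exists_factor (lam_mem_unitary v) h0 h1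
  refine ⟨n, r, ?_⟩
  rw [star_lam] at hQ
  have q2 := norm_resolvent hv h0 h1 (Q (dl 1)) (congrArg (fun T : Bdd (L2 G) => T (dl 1)) hQ)
  rw [e, mul_apply_eq_comp]
  refine (ContinuousLinearMap.le_opNorm _ _).trans ?_
  refine (mul_le_mul_of_nonneg_right hP (norm_nonneg _)).trans ?_
  refine (abs_le_of_sq_le_sq' ?_ hε.le).2
  set s := ‖Q (dl 1)‖ ^ 2 with hs
  have hs0 : 0 ≤ s := by positivity
  have q7 : d * s ≤ 1 := by nlinarith [mul_nonneg hd0.le hs0]
  calc (3 * (1 - (1 - d)) * ‖Q (dl 1)‖) ^ 2 = 9 * d * (d * s) := by rw [hs]; ring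
    _ ≤ 9 * d * 1 := by gcongr
    _ ≤ ε ^ 2 := by linarith

theorem ex_mem_vN (n : ℕ) (r : ℕ → ℝ) (v : G) (t : ℝ) : ex n r (lam v) t ∈ vN G := by
  have := isClosed_vN (G := G)
  exact cfc_mem (𝕜' := ℂ) _ (lam_mem_vN v)

end Vale.Agent.P086
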