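import Vale.Agent.P086.Flow

/-! Derivations of the group algebra of a free group. -/

set_option linter.unusedSectionVars false

namespace Vale.Agent.P086

open scoped Nat

/-- The image of a group element in the group algebra. -/
noncomputable abbrev og {G : Type} [Group G] (g : G) : MonoidAlgebra ℂ G := MonoidAlgebra.of ℂ G g

section General

variable {G : Type} [Group G]

theorem og_mul (g h : G) : og (g * h) = og g * og h := map_mul _ _ _

theorem og_one : og (1 : G) = 1 := map_one _

theorem og_mul_inv (g : G) : og g * og g⁻¹ = 1 := by rw [← og_mul, mul_inv_cancel, og_one]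

theorem og_inv_mul (g : G) : og g⁻¹ * og g = 1 := by rw [← og_mul, inv_mul_cancel, og_one]

theorem Lam_og (g : G) : Lam (og g) = lam g := Lam_of g

variable {δ : Module.End ℂ (MonoidAlgebra ℂ G)}

theorem deriv_one (h1 : ∀ x y, δ (x * y) = δ x * y + x * δ y) : δ 1 = 0 := by
  simpa using h1 1 1

theorem deriv_inv (h1 : ∀ x y, δ (x * y) = δ x * y + x * δ y) (g : G) :
    δ (og g⁻¹) = -(og g⁻¹ * δ (og g) * og g⁻¹) := by
  have h := h1 (og g⁻¹) (og g)
  rw [og_inv_mul, deriv_one h1] at h
  have h2 := congrArg (· * og g⁻¹) h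
  simp only [zero_mul, add_mul, mul_assoc, og_mul_inv, mul_one] at h2
  rw [eq_neg_iff_add_eq_zero, mul_assoc]
  exact h2.symm

theorem deriv_zpow (h1 : ∀ x y, δ (x * y) = δ x * y + x * δ y) {v : G} (hv : δ (og v) = 0)
    (k : ℤ) : δ (og (v ^ k)) = 0 := by
  have hn : ∀ n : ℕ, δ (og (v ^ n)) = 0 := by
    intro n
    induction n with
    | zero => rw [pow_zero, og_one, deriv_one h1]
    | succ n ih => rw [pow_succ, og_mul, h1, ih, hv]; simp
  obtain ⟨n, rfl | rfl⟩ := k.eq_nat_or_neg
  · rw [zpow_natCast, hn]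
  · rw [zpow_neg, zpow_natCast, deriv_inv h1, hn]; simp

theorem Lam_apply_dl (x : MonoidAlgebra ℂ G) (g : G) : Lam x (dl 1) g = x.coeff g := by
  classical
  induction x using MonoidAlgebra.induction_on with
  | of h =>
    rw [Lam_of, lam_dl, mul_one, dl_apply, MonoidAlgebra.of_apply, MonoidAlgebra.coeff_single,
      Finsupp.single_apply]
    exact if_congr eq_comm rfl rfl
  | add x y hx hy => simp [hx, hy]
  | smul r x hx => simp [hx]

theorem Lam_injective : Function.Injective (Lam (G := G)) := by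
  intro x y h
  apply MonoidAlgebra.coeff_injective
  ext g
  rw [← Lam_apply_dl, ← Lam_apply_dl, h]

theorem star_deriv_pow (hg : ∀ g : G, star (Lam (δ (og g))) = Lam (δ (og g⁻¹))) (n : ℕ) (g : G) :
    star (Lam ((δ ^ n) (og g))) = Lam ((δ ^ n) (og g⁻¹)) := by
  have k1 : ∀ x, ∃ y, star (Lam x) = Lam y ∧ star (Lam (δ x)) = Lam (δ y) := by
    intro x
    induction x using MonoidAlgebra.induction_on with
    | of g => exact ⟨og g⁻¹, by rw [Lam_of, Lam_og, star_lam], hg g⟩
    | add x y hx hy =>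
      obtain ⟨x', h1, h2⟩ := hx
      obtain ⟨y', h3, h4⟩ := hy
      exact ⟨x' + y', by simp [h1, h3], by simp [h2, h4]⟩
    | smul r x hx =>
      obtain ⟨x', h1, h2⟩ := hx
      exact ⟨star r • x', by simp [h1], by simp [h2]⟩
  induction n with
  | zero => simp only [pow_zero, Module.End.one_apply]; rw [Lam_og, Lam_og, star_lam]
  | succ n ih =>
    obtain ⟨y, h1, h2⟩ := k1 ((δ ^ n) (og g))
    rw [pow_succ', Module.End.mul_apply, Module.End.mul_apply, h2,
      Lam_injective (h1.symm.trans ih)]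

/-- The span of the conjugates of the powers of `v`. -/
noncomputable def conjSpan (v : G) : Submodule ℂ (MonoidAlgebra ℂ G) :=
  Submodule.span ℂ {x | ∃ (y : G) (k : ℤ), x = og (y * v ^ k * y⁻¹)}

theorem conj_mem_conjSpan {v : G} {x : MonoidAlgebra ℂ G} (hx : x ∈ conjSpan v) (g : G) :
    og g * x * og g⁻¹ ∈ conjSpan v := by
  induction hx using Submodule.span_induction with
  | mem x hx =>
    obtain ⟨y, k, rfl⟩ := hx
    refine Submodule.subset_span ⟨g * y, k, ?_⟩
    rw [← og_mul, ← og_mul]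
    congr 1
    group
  | zero => simp
  | add x y _ _ hx hy => rw [mul_add, add_mul]; exact add_mem hx hy
  | smul r x _ hx => rw [mul_smul_comm, smul_mul_assoc]; exact Submodule.smul_mem _ r hx

theorem tr_deriv_eq_zero (h1 : ∀ x y, δ (x * y) = δ x * y + x * δ y) {v : G} (hv : δ (og v) = 0)
    (hg : ∀ g : G, δ (og g) * og g⁻¹ ∈ conjSpan v) (x : MonoidAlgebra ℂ G) :
    tr (Lam (δ x)) = 0 := by
  classical
  induction x using MonoidAlgebra.induction_on with
  | add x y hx hy => simp [hx, hy]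
  | smul r x hx => simp [hx]
  | of g =>
    change tr (Lam (δ (og g))) = 0
    by_cases h : ∃ (y : G) (k : ℤ), g = y * v ^ k * y⁻¹
    · obtain ⟨y, k, rfl⟩ := h
      rw [og_mul, og_mul, h1, h1, deriv_zpow h1 hv, deriv_inv h1, mul_zero, add_zero, map_add,
        map_add, mul_neg, map_neg, map_neg, add_neg_eq_zero]
      have e : og y * og (v ^ k) * (og y⁻¹ * δ (og y) * og y⁻¹)
          = (og y * og (v ^ k) * og y⁻¹) * (δ (og y) * og y⁻¹) := by simp only [mul_assoc]
      rw [e, map_mul Lam _ (δ (og y) * og y⁻¹), tr_mul_comm (Lam_mem_vN _) (Lam_mem_vN _),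
        ← map_mul]
      congr 2
      simp only [mul_assoc]
      rw [← mul_assoc (og y⁻¹) (og y), og_inv_mul, one_mul]
    · have k1 : ∀ z ∈ conjSpan v, tr (Lam (z * og g)) = 0 := by
        intro z hz
        induction hz using Submodule.span_induction with
        | mem z hz =>
          obtain ⟨y, k, rfl⟩ := hz
          rw [← og_mul, Lam_og, tr_lam, if_neg]
          intro h'
          refine h ⟨y, -k, ?_⟩
          rw [eq_inv_of_mul_eq_one_right h']
          group
        | zero => simp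
        | add x y _ _ hx hy => rw [add_mul, map_add, map_add, hx, hy, add_zero]
        | smul r x _ hx => rw [smul_mul_assoc, map_smul, map_smul, hx, smul_zero]
      have := k1 _ (hg g)
      rwa [mul_assoc, og_inv_mul, mul_one] at this

end General

section Free

variable {α : Type}

theorem exists_deriv (X : α → MonoidAlgebra ℂ (FreeGroup α)) :
    ∃ δ : Module.End ℂ (MonoidAlgebra ℂ (FreeGroup α)),
      (∀ x y, δ (x * y) = δ x * y + x * δ y) ∧
      ∀ a, δ (og (FreeGroup.of a)) = X a * og (FreeGroup.of a) := by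
  set u : α → (DualNumber (MonoidAlgebra ℂ (FreeGroup α)))ˣ := fun a =>
    { val := TrivSqZeroExt.inl (og (FreeGroup.of a)) + TrivSqZeroExt.inr (X a * og (FreeGroup.of a))
      inv := TrivSqZeroExt.inl (og (FreeGroup.of a)⁻¹)
        + TrivSqZeroExt.inr (-(og (FreeGroup.of a)⁻¹ * X a))
      val_inv := by
        apply TrivSqZeroExt.ext
        · simp only [TrivSqZeroExt.fst_mul, TrivSqZeroExt.fst_add, TrivSqZeroExt.fst_inl,
            TrivSqZeroExt.fst_inr, add_zero, og_mul_inv, TrivSqZeroExt.fst_one]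
        · simp only [DualNumber.snd_mul, TrivSqZeroExt.fst_add, TrivSqZeroExt.fst_inl,
            TrivSqZeroExt.fst_inr, add_zero, TrivSqZeroExt.snd_add, TrivSqZeroExt.snd_inl,
            TrivSqZeroExt.snd_inr, zero_add, TrivSqZeroExt.snd_one]
          rw [mul_neg, ← mul_assoc, og_mul_inv, mul_assoc, og_mul_inv]
          simp
      inv_val := by
        apply TrivSqZeroExt.ext
        · simp only [TrivSqZeroExt.fst_mul, TrivSqZeroExt.fst_add, TrivSqZeroExt.fst_inl,
            TrivSqZeroExt.fst_inr, add_zero, og_inv_mul, TrivSqZeroExt.fst_one]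
        · simp only [DualNumber.snd_mul, TrivSqZeroExt.fst_add, TrivSqZeroExt.fst_inl,
            TrivSqZeroExt.fst_inr, add_zero, TrivSqZeroExt.snd_add, TrivSqZeroExt.snd_inl,
            TrivSqZeroExt.snd_inr, zero_add, TrivSqZeroExt.snd_one]
          rw [neg_mul, mul_assoc, add_neg_cancel] } with hu
  set Φ : MonoidAlgebra ℂ (FreeGroup α) →ₐ[ℂ] DualNumber (MonoidAlgebra ℂ (FreeGroup α)) :=
    MonoidAlgebra.lift ℂ _ _ ((Units.coeHom _).comp (FreeGroup.lift u)) with hΦ
  have hΦa : ∀ a, Φ (og (FreeGroup.of a)) = u a := by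
    intro a
    rw [hΦ, MonoidAlgebra.lift_of]
    simp
  have hfst : ∀ x, (Φ x).fst = x := by
    have hg : ∀ g, (Φ (og g)).fst = og g := by
      intro g
      induction g using FreeGroup.induction_on with
      | C1 => rw [og_one, map_one, TrivSqZeroExt.fst_one]
      | of a => rw [hΦa]; simp [hu]
      | inv_of a _ =>
        rw [hΦ, MonoidAlgebra.lift_of]
        simp [hu]
      | mul g h hg hh => rw [og_mul, map_mul, TrivSqZeroExt.fst_mul, hg, hh]
    intro x
    induction x using MonoidAlgebra.induction_on with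
    | of g => exact hg g
    | add x y hx hy => rw [map_add, TrivSqZeroExt.fst_add, hx, hy]
    | smul r x hx => rw [map_smul, TrivSqZeroExt.fst_smul, hx]
  refine ⟨{ toFun := fun x => (Φ x).snd
            map_add' := fun x y => by rw [map_add, TrivSqZeroExt.snd_add]
            map_smul' := fun r x => by rw [map_smul, TrivSqZeroExt.snd_smul]; rfl }, ?_, ?_⟩
  · intro x y
    change (Φ (x * y)).snd = (Φ x).snd * y + x * (Φ y).snd
    rw [map_mul, DualNumber.snd_mul, hfst, hfst, add_comm]
  · intro a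
    change (Φ _).snd = _
    rw [hΦa]
    simp [hu]

/-- Elements of degree at most `d` and total mass at most `B`. -/
inductive Bd (d : ℕ) : ℝ → MonoidAlgebra ℂ (FreeGroup α) → Prop
  | zero : Bd d 0 0
  | single (l : List (α × Bool)) (r : ℂ) (h : l.length ≤ d) : Bd d ‖r‖ (r • og (FreeGroup.mk l))
  | add {B B' : ℝ} {x y : MonoidAlgebra ℂ (FreeGroup α)} : Bd d B x → Bd d B' y →
      Bd d (B + B') (x + y)
  | mono {B B' : ℝ} {x : MonoidAlgebra ℂ (FreeGroup α)} : Bd d B x → B ≤ B' → Bd d B' x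

variable {d d' : ℕ} {B : ℝ} {x : MonoidAlgebra ℂ (FreeGroup α)}

theorem Bd.norm_le (h : Bd d B x) : ‖Lam x‖ ≤ B := by
  induction h with
  | zero => simp
  | single l r _ =>
    rw [map_smul, norm_smul, Lam_og]
    exact mul_le_of_le_one_right (norm_nonneg _) (norm_lam_le _)
  | add _ _ h1 h2 => rw [map_add]; exact (norm_add_le _ _).trans (add_le_add h1 h2)
  | mono _ h h1 => exact h1.trans h

theorem Bd.nonneg (h : Bd d B x) : 0 ≤ B := (norm_nonneg _).trans h.norm_le

theorem Bd.mono_deg (h : Bd d B x) (hd : d ≤ d') : Bd d' B x := by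
  induction h with
  | zero => exact Bd.zero
  | single l r h => exact Bd.single l r (h.trans hd)
  | add _ _ h1 h2 => exact h1.add h2
  | mono _ h h1 => exact h1.mono h

theorem Bd.smul (h : Bd d B x) (r : ℂ) : Bd d (‖r‖ * B) (r • x) := by
  induction h with
  | zero => simpa using Bd.zero
  | single l s h => rw [smul_smul, ← norm_mul]; exact Bd.single l _ h
  | add _ _ h1 h2 => rw [mul_add, smul_add]; exact h1.add h2
  | mono _ h h1 => exact h1.mono (by gcongr)

theorem Bd.mul_left (h : Bd d B x) (l : List (α × Bool)) :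
    Bd (l.length + d) B (og (FreeGroup.mk l) * x) := by
  induction h with
  | zero => simpa using Bd.zero
  | single l' s h =>
    rw [mul_smul_comm, ← og_mul, FreeGroup.mul_mk]
    exact Bd.single _ _ (by simp [h])
  | add _ _ h1 h2 => rw [mul_add]; exact h1.add h2
  | mono _ h h1 => exact h1.mono h

theorem Bd.mul_right (h : Bd d B x) (l : List (α × Bool)) :
    Bd (d + l.length) B (x * og (FreeGroup.mk l)) := by
  induction h with
  | zero => simpa using Bd.zero
  | single l' s h =>
    rw [smul_mul_assoc, ← og_mul, FreeGroup.mul_mk]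
    exact Bd.single _ _ (by simp [h])
  | add _ _ h1 h2 => rw [add_mul]; exact h1.add h2
  | mono _ h h1 => exact h1.mono h

theorem exists_bd (x : MonoidAlgebra ℂ (FreeGroup α)) : ∃ d B, Bd d B x := by
  classical
  induction x using MonoidAlgebra.induction_on with
  | of g =>
    have := Bd.single (d := g.toWord.length) g.toWord 1 le_rfl
    rw [one_smul, FreeGroup.mk_toWord] at this
    exact ⟨_, _, this⟩
  | add x y hx hy =>
    obtain ⟨d, B, h⟩ := hx
    obtain ⟨d', B', h'⟩ := hy
    exact ⟨_, _, (h.mono_deg (le_max_left d d')).add (h'.mono_deg (le_max_right d d'))⟩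
  | smul r x hx =>
    obtain ⟨d, B, h⟩ := hx
    exact ⟨_, _, h.smul r⟩

variable {δ : Module.End ℂ (MonoidAlgebra ℂ (FreeGroup α))} {X : α → MonoidAlgebra ℂ (FreeGroup α)}

theorem deriv_of_inv (h1 : ∀ x y, δ (x * y) = δ x * y + x * δ y)
    (hX : ∀ a, δ (og (FreeGroup.of a)) = X a * og (FreeGroup.of a)) (a : α) :
    δ (og (FreeGroup.of a)⁻¹) = -(og (FreeGroup.of a)⁻¹ * X a) := by
  rw [deriv_inv h1, hX, mul_assoc, mul_assoc, og_mul_inv, mul_one]

theorem bd_deriv_word (h1 : ∀ x y, δ (x * y) = δ x * y + x * δ y)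
    (hX : ∀ a, δ (og (FreeGroup.of a)) = X a * og (FreeGroup.of a)) {L : ℕ} {H : ℝ}
    (hB : ∀ a, Bd L H (X a)) (l : List (α × Bool)) :
    Bd (l.length + L) (l.length * H) (δ (og (FreeGroup.mk l))) := by
  induction l with
  | nil =>
    rw [← FreeGroup.one_eq_mk, og_one, deriv_one h1]
    simpa using Bd.zero
  | cons p l ih =>
    have e : FreeGroup.mk (p :: l) = FreeGroup.mk [p] * FreeGroup.mk l := by
      rw [FreeGroup.mul_mk]; rfl
    have k1 : Bd (1 + L) H (δ (og (FreeGroup.mk [p]))) := by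
      obtain ⟨a, b⟩ := p
      cases b
      · have e2 : FreeGroup.mk [(a, false)] = (FreeGroup.of a)⁻¹ := rfl
        rw [e2, deriv_of_inv h1 hX, ← e2]
        simpa using ((hB a).mul_left [(a, false)]).smul (-1)
      · have e2 : FreeGroup.mk [(a, true)] = FreeGroup.of a := rfl
        rw [e2, hX, ← e2, add_comm]
        exact (hB a).mul_right [(a, true)]
    rw [e, og_mul, h1]
    refine (((k1.mul_right l).mono_deg ?_).add ((ih.mul_left [p]).mono_deg ?_)).mono ?_
    · simp; omega
    · simp; omega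
    · simp; linarith

theorem Bd.deriv (h1 : ∀ x y, δ (x * y) = δ x * y + x * δ y)
    (hX : ∀ a, δ (og (FreeGroup.of a)) = X a * og (FreeGroup.of a)) {L : ℕ} {H : ℝ} (hH : 0 ≤ H)
    (hB : ∀ a, Bd L H (X a)) (h : Bd d B x) : Bd (d + L) (d * H * B) (δ x) := by
  induction h with
  | zero => simpa using Bd.zero
  | single l r h =>
    rw [map_smul]
    refine (((bd_deriv_word h1 hX hB l).smul r).mono_deg (by omega)).mono ?_
    rw [mul_comm]
    gcongr
  | add _ _ h1 h2 => rw [map_add, mul_add]; exact h1.add h2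
  | mono _ h h1 => exact h1.mono (by gcongr)

theorem deriv_growth (h1 : ∀ x y, δ (x * y) = δ x * y + x * δ y)
    (hX : ∀ a, δ (og (FreeGroup.of a)) = X a * og (FreeGroup.of a)) {L : ℕ} {H : ℝ} (hH : 0 ≤ H)
    (hB : ∀ a, Bd L H (X a)) (x : MonoidAlgebra ℂ (FreeGroup α)) :
    ∃ C : ℝ, ∀ n, ‖Lam ((δ ^ n) x)‖ ≤ C * (2 * (H * (L + 1))) ^ n * n ! := by
  obtain ⟨d, B, h⟩ := exists_bd x
  have hB0 := h.nonneg
  have key : ∀ n, Bd (d + n * L) (B * (H * (L + 1)) ^ n * (d + n)!) ((δ ^ n) x) := by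
    intro n
    induction n with
    | zero =>
      simp only [zero_mul, add_zero, pow_zero, mul_one, Module.End.one_apply]
      refine h.mono (le_mul_of_one_le_right hB0 ?_)
      exact_mod_cast d.factorial_pos
    | succ n ih =>
      rw [pow_succ' δ, Module.End.mul_apply]
      refine ((ih.deriv h1 hX hH hB).mono_deg (le_of_eq (by ring))).mono ?_
      rw [← add_assoc, Nat.factorial_succ, pow_succ]
      push_cast
      have h3 : ((d : ℝ) + n * L) ≤ (L + 1) * (d + n + 1) := by
        have : (0 : ℝ) ≤ L := by positivity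
        have : (0 : ℝ) ≤ d := by positivity
        have : (0 : ℝ) ≤ n := by positivity
        nlinarith
      calc _ = ((d : ℝ) + n * L) * (H * (B * (H * (L + 1)) ^ n * (d + n)!)) := by ring
        _ ≤ ((L + 1) * (d + n + 1)) * (H * (B * (H * (L + 1)) ^ n * (d + n)!)) := by gcongr
        _ = _ := by ring
  refine ⟨B * 2 ^ d * d !, fun n => (key n).norm_le.trans ?_⟩
  have h3 : (((d + n)! : ℕ) : ℝ) ≤ 2 ^ (d + n) * (d ! * n !) := by
    have := Nat.add_choose_mul_factorial_mul_factorial d n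
    have h4 := Nat.choose_le_two_pow (d + n) n
    have : (d + n)! ≤ 2 ^ (d + n) * (d ! * n !) := by
      rw [← this, mul_assoc]
      exact Nat.mul_le_mul_right _ h4
    exact_mod_cast this
  calc _ ≤ B * (H * (L + 1)) ^ n * (2 ^ (d + n) * (d ! * n !)) := by gcongr
    _ = _ := by rw [mul_pow 2, pow_add]; ring

theorem deriv_mem_conjSpan (h1 : ∀ x y, δ (x * y) = δ x * y + x * δ y)
    (hX : ∀ a, δ (og (FreeGroup.of a)) = X a * og (FreeGroup.of a)) {v : FreeGroup α}
    (hv : ∀ a, X a ∈ conjSpan v) (g : FreeGroup α) : δ (og g) * og g⁻¹ ∈ conjSpan v := by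
  induction g using FreeGroup.induction_on with
  | C1 => rw [og_one, deriv_one h1, zero_mul]; exact zero_mem _
  | of a => rw [hX, mul_assoc, og_mul_inv, mul_one]; exact hv a
  | inv_of a _ =>
    rw [deriv_of_inv h1 hX, neg_mul]
    exact neg_mem (conj_mem_conjSpan (hv a) _)
  | mul g h hg hh =>
    have e : δ (og (g * h)) * og (g * h)⁻¹
        = δ (og g) * og g⁻¹ + og g * (δ (og h) * og h⁻¹) * og g⁻¹ := by
      rw [og_mul, h1, mul_inv_rev, og_mul, add_mul]
      simp only [mul_assoc]
      rw [← mul_assoc (og h), og_mul_inv, one_mul]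
    rw [e]
    exact add_mem hg (conj_mem_conjSpan hh g)

theorem star_deriv_og (h1 : ∀ x y, δ (x * y) = δ x * y + x * δ y)
    (hX : ∀ a, δ (og (FreeGroup.of a)) = X a * og (FreeGroup.of a))
    (hs : ∀ a, star (Lam (X a)) = -Lam (X a)) (g : FreeGroup α) :
    star (Lam (δ (og g))) = Lam (δ (og g⁻¹)) := by
  induction g using FreeGroup.induction_on with
  | C1 => rw [inv_one, og_one, deriv_one h1]; simp
  | of a =>
    rw [deriv_of_inv h1 hX, hX, map_mul, star_mul, hs, Lam_og, star_lam, map_neg, map_mul, Lam_og,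
      mul_neg]
  | inv_of a ih => rw [← ih, star_star, inv_inv]
  | mul g h hg hh =>
    rw [mul_inv_rev, og_mul, og_mul, h1, h1]
    simp only [map_add, map_mul, star_add, star_mul, hg, hh, Lam_og, star_lam]
    rw [add_comm]

theorem exists_free_flow (X : α → MonoidAlgebra ℂ (FreeGroup α)) {L : ℕ} {H : ℝ} (hH : 0 < H)
    (hB : ∀ a, Bd L H (X a)) (hs : ∀ a, star (Lam (X a)) = -Lam (X a)) (v : α) (hv0 : X v = 0)
    (hv : ∀ a, X a ∈ conjSpan (FreeGroup.of v)) :
    ∃ δ : Module.End ℂ (MonoidAlgebra ℂ (FreeGroup α)),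
      (∀ x y, δ (x * y) = δ x * y + x * δ y) ∧
      (∀ a, δ (og (FreeGroup.of a)) = X a * og (FreeGroup.of a)) ∧
      ∃ R : ℝ, 0 < R ∧ ∃ K : MonoidAlgebra ℂ (FreeGroup α) → ℝ, ∀ t : ℝ, 0 ≤ t → t * R ≤ 1 / 4 →
        ∃ W : L2 (FreeGroup α) ≃ₗᵢ[ℂ] L2 (FreeGroup α), IsStd W ∧ ∀ x,
          ‖W.conjStarAlgEquiv (Lam x) - Lam x - (t : ℂ) • Lam (δ x)‖ ≤ K x * t ^ 2 ∧
          (δ x = 0 → W.conjStarAlgEquiv (Lam x) = Lam x) := by
  obtain ⟨δ, h1, hX⟩ := exists_deriv X
  refine ⟨δ, h1, hX, 2 * (H * (L + 1)), by positivity, exists_flow δ h1 (by positivity)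
    (deriv_growth h1 hX hH.le hB) ?_ (star_deriv_pow (star_deriv_og h1 hX hs))⟩
  exact tr_deriv_eq_zero h1 (by rw [hX, hv0, zero_mul]) (deriv_mem_conjSpan h1 hX hv)

end Free

end Vale.Agent.P086
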