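import Vale.Agent.P086.Transfer

/-! Exponentiating a trace-killing star derivation of the group algebra with analytic growth. -/

set_option linter.unusedSectionVars false

namespace Vale.Agent.P086

open scoped InnerProductSpace Nat
open Finset

theorem leibniz_pow {A : Type} [Ring A] [Algebra ℂ A] (δ : Module.End ℂ A)
    (hδ : ∀ x y, δ (x * y) = δ x * y + x * δ y) (x y : A) (n : ℕ) :
    (δ ^ n) (x * y) = ∑ p ∈ antidiagonal n, n.choose p.1 • ((δ ^ p.1) x * (δ ^ p.2) y) := by
  induction n with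
  | zero => simp
  | succ n ih =>
    rw [Finset.sum_antidiagonal_choose_succ_nsmul (fun i j => (δ ^ i) x * (δ ^ j) y), pow_succ',
      Module.End.mul_apply, ih, map_sum, ← Finset.sum_add_distrib]
    refine Finset.sum_congr rfl fun p hp => ?_
    have hp' : n.choose p.2 = n.choose p.1 := (Nat.choose_symm_of_eq_add (mem_antidiagonal.1 hp).symm).symm
    rw [map_nsmul, hδ, hp', pow_succ', pow_succ', Module.End.mul_apply, Module.End.mul_apply,
      smul_add, add_comm]

section Series

variable {E : Type} [NormedAddCommGroup E] [NormedSpace ℂ E] [CompleteSpace E]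

theorem norm_term_le {b : ℕ → E} {C R : ℝ} (hb : ∀ n, ‖b n‖ ≤ C * R ^ n * n !) (t : ℂ) (n : ℕ) :
    ‖(t ^ n / n !) • b n‖ ≤ C * (‖t‖ * R) ^ n := by
  have h0 : (0 : ℝ) < n ! := by exact_mod_cast n.factorial_pos
  rw [norm_smul, norm_div, norm_pow, Complex.norm_natCast, div_mul_eq_mul_div, div_le_iff₀ h0]
  calc ‖t‖ ^ n * ‖b n‖ ≤ ‖t‖ ^ n * (C * R ^ n * n !) := by gcongr; exact hb n
    _ = _ := by rw [mul_pow]; ring

theorem summable_norm_term {b : ℕ → E} {C R : ℝ} (hR : 0 ≤ R)
    (hb : ∀ n, ‖b n‖ ≤ C * R ^ n * n !) {t : ℂ} (ht : ‖t‖ * R < 1) :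
    Summable fun n => ‖(t ^ n / n !) • b n‖ :=
  Summable.of_nonneg_of_le (fun _ => norm_nonneg _) (norm_term_le hb t)
    ((summable_geometric_of_lt_one (by positivity) ht).mul_left C)

theorem hasSum_inverse {b : ℕ → E} {C R : ℝ} (hR : 0 ≤ R)
    (hb : ∀ n, ‖b n‖ ≤ C * R ^ n * n !) {t : ℂ} (ht : ‖t‖ * R ≤ 1 / 4) :
    HasSum (fun k => ((-t) ^ k / k !) • ∑' l, (t ^ l / l !) • b (l + k)) (b 0) := by
  have hC : 0 ≤ C := by simpa using (norm_nonneg _).trans (hb 0)
  set f : ℕ × ℕ → E := fun p => ((-t) ^ p.1 / p.1 ! * (t ^ p.2 / p.2 !)) • b (p.2 + p.1) with hf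
  have hbound : ∀ p : ℕ × ℕ, ‖f p‖ ≤ C * ((1 / 2) ^ p.1 * (1 / 2) ^ p.2) := by
    rintro ⟨k, l⟩
    have h1 : (0 : ℝ) < k ! := by exact_mod_cast k.factorial_pos
    have h2 : (0 : ℝ) < l ! := by exact_mod_cast l.factorial_pos
    have h3 : (((l + k)! : ℕ) : ℝ) ≤ 2 ^ (l + k) * (l ! * k !) := by
      have := Nat.add_choose_mul_factorial_mul_factorial l k
      have h4 := Nat.choose_le_two_pow (l + k) k
      have : (l + k)! ≤ 2 ^ (l + k) * (l ! * k !) := by
        rw [← this, mul_assoc]
        exact Nat.mul_le_mul_right _ h4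
      exact_mod_cast this
    simp only [hf, norm_smul, norm_mul, norm_div, norm_pow, norm_neg, Complex.norm_natCast]
    calc ‖t‖ ^ k / k ! * (‖t‖ ^ l / l !) * ‖b (l + k)‖
        ≤ ‖t‖ ^ k / k ! * (‖t‖ ^ l / l !) * (C * R ^ (l + k) * (2 ^ (l + k) * (l ! * k !))) := by
          gcongr
          exact (hb _).trans (by gcongr)
      _ = C * ((2 * (‖t‖ * R)) ^ k * (2 * (‖t‖ * R)) ^ l) := by
          field_simp
          ring
      _ ≤ _ := by gcongr <;> linarith
  have hsum : Summable f := by
    refine Summable.of_norm_bounded ?_ hbound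
    exact (Summable.mul_of_nonneg summable_geometric_two summable_geometric_two
      (fun _ => by positivity) (fun _ => by positivity)).mul_left C
  have h1 : HasSum f (b 0) := by
    have h2 := (Finset.HasAntidiagonal.sigmaAntidiagonalEquivProd.hasSum_iff).2 hsum.hasSum
    have h3 : HasSum (fun n => ∑ p ∈ antidiagonal n, f p) (∑' p, f p) := by
      refine h2.sigma fun n => ?_
      exact (Finset.sum_coe_sort (antidiagonal n) f) ▸ hasSum_fintype _
    have h4 : ∀ n, ∑ p ∈ antidiagonal n, f p = if n = 0 then b 0 else 0 := by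
      intro n
      have h5 : ∑ p ∈ antidiagonal n, f p
          = (∑ p ∈ antidiagonal n, ((-t) ^ p.1 / p.1 ! * (t ^ p.2 / p.2 !))) • b n := by
        rw [Finset.sum_smul]
        refine Finset.sum_congr rfl fun p hp => ?_
        simp only [hf]
        rw [add_comm, mem_antidiagonal.1 hp]
      have h6 : ∑ p ∈ antidiagonal n, ((-t) ^ p.1 / p.1 ! * (t ^ p.2 / p.2 !))
          = (-t + t) ^ n / n ! := by
        rw [(Commute.all (-t) t).add_pow', Finset.sum_div]
        refine Finset.sum_congr rfl fun p hp => ?_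
        have h7 := Nat.add_choose_mul_factorial_mul_factorial p.1 p.2
        rw [mem_antidiagonal.1 hp,
          (Nat.choose_symm_of_eq_add (mem_antidiagonal.1 hp).symm).symm] at h7
        have h8 : (n ! : ℂ) = n.choose p.1 * p.1 ! * p.2 ! := by exact_mod_cast h7.symm
        have h9 : (n.choose p.1 : ℂ) ≠ 0 := by
          intro h
          rw [h, zero_mul, zero_mul] at h8
          exact n.factorial_ne_zero (by exact_mod_cast h8)
        have h10 : (p.1 ! : ℂ) ≠ 0 := by exact_mod_cast p.1.factorial_ne_zero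
        have h11 : (p.2 ! : ℂ) ≠ 0 := by exact_mod_cast p.2.factorial_ne_zero
        rw [h8, nsmul_eq_mul]
        field_simp
      rw [h5, h6, neg_add_cancel]
      split_ifs with hn
      · subst hn; simp
      · simp [hn]
    simp only [h4] at h3
    rw [← h3.unique (hasSum_ite_eq 0 (b 0))]
    exact hsum.hasSum
  refine h1.prod_fiberwise fun k => ?_
  have h2 : HasSum (fun l => f (k, l)) (∑' l, f (k, l)) := (hsum.prod_factor k).hasSum
  convert h2 using 1
  rw [← tsum_const_smul'' ]
  simp only [hf, mul_smul]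

theorem norm_series_sub_le {b : ℕ → E} {C R : ℝ} (hR : 0 ≤ R)
    (hb : ∀ n, ‖b n‖ ≤ C * R ^ n * n !) {t : ℂ} (ht : ‖t‖ * R ≤ 1 / 4) :
    ‖∑' n, (t ^ n / n !) • b n - b 0 - t • b 1‖ ≤ 2 * C * R ^ 2 * ‖t‖ ^ 2 := by
  have hC : 0 ≤ C := by simpa using (norm_nonneg _).trans (hb 0)
  have hs := (summable_norm_term hR hb (t := t) (by linarith)).of_norm
  rw [← hs.sum_add_tsum_nat_add 2]
  have e : ∑ i ∈ range 2, (t ^ i / i !) • b i = b 0 + t • b 1 := by simp [Finset.sum_range_succ]
  rw [e, show ∀ x y z : E, x + y + z - x - y = z from fun x y z => by abel]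
  have h2 : HasSum (fun n : ℕ => C * (‖t‖ * R) ^ 2 * (1 / 2) ^ n) (C * (‖t‖ * R) ^ 2 * 2) :=
    hasSum_geometric_two.mul_left _
  refine (tsum_of_norm_bounded h2 fun n => (norm_term_le hb t (n + 2)).trans ?_).trans
    (le_of_eq (by ring))
  rw [pow_add, mul_comm (_ ^ n), mul_assoc]
  gcongr
  linarith

end Series

variable {G : Type} [Group G]

/-- The group algebra acting by the left regular representation. -/
noncomputable def Lam : MonoidAlgebra ℂ G →ₐ[ℂ] Bdd (L2 G) := MonoidAlgebra.lift ℂ _ G lam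

theorem Lam_of (g : G) : Lam (MonoidAlgebra.of ℂ G g) = lam g := MonoidAlgebra.lift_of _ _

theorem Lam_mem_vN (x : MonoidAlgebra ℂ G) : Lam x ∈ vN G := by
  induction x using MonoidAlgebra.induction_on with
  | of g => rw [Lam_of]; exact lam_mem_vN g
  | add x y hx hy => rw [map_add]; exact add_mem hx hy
  | smul r x hx => rw [map_smul]; exact SMulMemClass.smul_mem r hx

theorem exists_flow (δ : Module.End ℂ (MonoidAlgebra ℂ G))
    (h1 : ∀ x y, δ (x * y) = δ x * y + x * δ y)
    {R : ℝ} (hR : 0 < R) (h2 : ∀ x, ∃ C : ℝ, ∀ n, ‖Lam ((δ ^ n) x)‖ ≤ C * R ^ n * n !)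
    (h3 : ∀ x, tr (Lam (δ x)) = 0)
    (h4 : ∀ (n : ℕ) (g : G), star (Lam ((δ ^ n) (MonoidAlgebra.of ℂ G g)))
      = Lam ((δ ^ n) (MonoidAlgebra.of ℂ G g⁻¹))) :
    ∃ K : MonoidAlgebra ℂ G → ℝ, ∀ t : ℝ, 0 ≤ t → t * R ≤ 1 / 4 →
      ∃ W : L2 G ≃ₗᵢ[ℂ] L2 G, IsStd W ∧ ∀ x,
        ‖W.conjStarAlgEquiv (Lam x) - Lam x - (t : ℂ) • Lam (δ x)‖ ≤ K x * t ^ 2 ∧
        (δ x = 0 → W.conjStarAlgEquiv (Lam x) = Lam x) := by
  choose C hC using h2
  refine ⟨fun x => 2 * C x * R ^ 2, fun t ht0 ht => ?_⟩
  have htn : ‖(t : ℂ)‖ = t := by simp [abs_of_nonneg ht0]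
  have ht' : ‖(t : ℂ)‖ * R ≤ 1 / 4 := by rwa [htn]
  set term : MonoidAlgebra ℂ G → ℕ → Bdd (L2 G) :=
    fun x n => ((t : ℂ) ^ n / n !) • Lam ((δ ^ n) x) with hterm
  have hsn : ∀ x, Summable fun n => ‖term x n‖ := fun x =>
    summable_norm_term hR.le (hC x) (by linarith)
  have hs : ∀ x, HasSum (term x) (∑' n, term x n) := fun x => (hsn x).of_norm.hasSum
  have hfix : ∀ x, δ x = 0 → ∑' n, term x n = Lam x := by
    intro x hx
    rw [tsum_eq_single 0]
    · simp [hterm]
    · intro n hn
      obtain ⟨m, rfl⟩ := Nat.exists_eq_succ_of_ne_zero hn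
      simp [hterm, pow_succ, hx]
  have hone : δ 1 = 0 := by
    have := h1 1 1
    simpa using this
  set α : MonoidAlgebra ℂ G →ₐ[ℂ] Bdd (L2 G) :=
    { toFun := fun x => ∑' n, term x n
      map_one' := by rw [hfix 1 hone, map_one]
      map_mul' := by
        intro x y
        rw [tsum_mul_tsum_eq_tsum_sum_antidiagonal_of_summable_norm (hsn x) (hsn y)]
        refine tsum_congr fun n => ?_
        simp only [hterm]
        rw [leibniz_pow δ h1, map_sum, Finset.smul_sum]
        refine Finset.sum_congr rfl fun p hp => ?_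
        have h7 := Nat.add_choose_mul_factorial_mul_factorial p.1 p.2
        rw [mem_antidiagonal.1 hp,
          (Nat.choose_symm_of_eq_add (mem_antidiagonal.1 hp).symm).symm] at h7
        have h8 : (n ! : ℂ) = n.choose p.1 * p.1 ! * p.2 ! := by exact_mod_cast h7.symm
        have h9 : (n.choose p.1 : ℂ) ≠ 0 := by
          intro h
          rw [h, zero_mul, zero_mul] at h8
          exact n.factorial_ne_zero (by exact_mod_cast h8)
        have h10 : (p.1 ! : ℂ) ≠ 0 := by exact_mod_cast p.1.factorial_ne_zero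
        have h11 : (p.2 ! : ℂ) ≠ 0 := by exact_mod_cast p.2.factorial_ne_zero
        rw [map_nsmul, map_mul, smul_mul_smul_comm, ← Nat.cast_smul_eq_nsmul ℂ, smul_smul]
        congr 1
        rw [h8, ← mem_antidiagonal.1 hp, pow_add, mem_antidiagonal.1 hp]
        field_simp
      map_zero' := by simp [hterm]
      map_add' := by
        intro x y
        rw [← (hs x).summable.tsum_add (hs y).summable]
        refine tsum_congr fun n => ?_
        simp [hterm]
      commutes' := by
        intro r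
        rw [hfix, AlgHom.commutes]
        rw [Algebra.algebraMap_eq_smul_one, map_smul, hone, smul_zero] } with hα
  have hαx : ∀ x, α x = ∑' n, term x n := fun _ => rfl
  set π : G →* Bdd (L2 G) := (α : MonoidAlgebra ℂ G →* Bdd (L2 G)).comp (MonoidAlgebra.of ℂ G)
    with hπ
  have hπg : ∀ g, π g = α (MonoidAlgebra.of ℂ G g) := fun _ => rfl
  obtain ⟨W, hW, hWπ⟩ := exists_transfer π
    (fun g => isClosed_vN.mem_of_tendsto (hs _) (Filter.Eventually.of_forall fun s =>
      sum_mem fun n _ => SMulMemClass.smul_mem _ (Lam_mem_vN _)))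
    (fun g => by
      refine (hs (MonoidAlgebra.of ℂ G g)).star.unique (hasSum_congr' (hs _) fun n => ?_)
      simp only [hterm]
      rw [star_smul, h4]
      simp)
    (fun g hg => by
      refine ((hs (MonoidAlgebra.of ℂ G g)).map tr tr.continuous).unique
        (hasSum_congr' hasSum_zero fun n => ?_)
      simp only [hterm, Function.comp]
      rw [map_smul]
      rcases n with _ | n
      · classical
        rw [pow_zero δ, Module.End.one_apply, Lam_of, tr_lam, if_neg hg, smul_zero]
      · rw [pow_succ' δ, Module.End.mul_apply, h3, smul_zero])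
    (fun ξ hξ => by
      have k1 : ∀ x, ⟪ξ, α x (dl 1)⟫_ℂ = 0 := by
        intro x
        induction x using MonoidAlgebra.induction_on with
        | of g => rw [← inner_conj_symm, ← hπg, hξ, map_zero]
        | add x y hx hy => rw [map_add, add_apply, inner_add_right, hx, hy, add_zero]
        | smul r x hx => rw [map_smul, smul_apply, inner_smul_right, hx, mul_zero]
      apply lp.ext
      funext g
      have k2 := hasSum_inverse hR.le (hC (MonoidAlgebra.of ℂ G g)) ht'
      set ev : Bdd (L2 G) →L[ℂ] ℂ :=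
        (innerSL ℂ ξ).comp (ContinuousLinearMap.apply ℂ (L2 G) (dl 1)) with hev
      have hevT : ∀ T, ev T = ⟪ξ, T (dl 1)⟫_ℂ := fun T => rfl
      have k3 : ev (Lam ((δ ^ 0) (MonoidAlgebra.of ℂ G g))) = 0 := by
        refine (k2.map ev ev.continuous).unique (hasSum_congr' hasSum_zero fun k => ?_)
        simp only [Function.comp]
        have : ∑' l, ((t : ℂ) ^ l / l !) • Lam ((δ ^ (l + k)) (MonoidAlgebra.of ℂ G g))
            = α ((δ ^ k) (MonoidAlgebra.of ℂ G g)) := by
          rw [hαx]
          refine tsum_congr fun l => ?_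
          simp only [hterm]
          rw [pow_add, Module.End.mul_apply]
        rw [this, map_smul, hevT, k1, smul_zero]
      rw [pow_zero, Module.End.one_apply, Lam_of, hevT, lam_dl, mul_one, ← inner_conj_symm,
        inner_dl_left] at k3
      simpa using k3)
  have hWα : ∀ x, W.conjStarAlgEquiv (Lam x) = α x := by
    intro x
    induction x using MonoidAlgebra.induction_on with
    | of g => rw [Lam_of, hWπ, hπg]
    | add x y hx hy => rw [map_add, map_add, map_add, hx, hy]
    | smul r x hx => rw [map_smul, map_smul, map_smul, hx]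
  refine ⟨W, hW, fun x => ⟨?_, fun hx => by rw [hWα, hαx, hfix x hx]⟩⟩
  have := norm_series_sub_le hR.le (hC x) ht'
  rw [htn, pow_zero, pow_one, Module.End.one_apply] at this
  rw [hWα, hαx]
  exact this

end Vale.Agent.P086
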