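import Vale.Agent.P086.Words
import Vale.Agent.P086.Deriv
import Vale.Agent.P086.Circle

/-! The key approximation lemma. -/

set_option linter.unusedSectionVars false

namespace Vale.Agent.P086

open Finset Filter Topology

theorem exists_iterate {G : Type} [Group G] {W : L2 G ≃ₗᵢ[ℂ] L2 G} (hW : IsStd W) (N : ℕ) :
    ∃ V : L2 G ≃ₗᵢ[ℂ] L2 G, IsStd V ∧ ∀ E, W.conjStarAlgEquiv E = E → ‖E‖ ≤ 1 →
      V.conjStarAlgEquiv E = E ∧
        ∀ y, ‖V.conjStarAlgEquiv y - E ^ N * y‖ ≤ N * ‖W.conjStarAlgEquiv y - E * y‖ := by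
  induction N with
  | zero =>
    refine ⟨_, IsStd.refl, fun E _ _ => ⟨rfl, fun y => ?_⟩⟩
    have : (LinearIsometryEquiv.refl ℂ (L2 G)).conjStarAlgEquiv y = y := rfl
    simp
  | succ N ih =>
    obtain ⟨V, hV, h⟩ := ih
    refine ⟨W.trans V, hW.trans hV, fun E hE hE1 => ?_⟩
    obtain ⟨h1, h2⟩ := h E hE hE1
    refine ⟨by rw [conj_trans, hE, h1], fun y => ?_⟩
    have e : (W.trans V).conjStarAlgEquiv y - E ^ (N + 1) * y
        = V.conjStarAlgEquiv (W.conjStarAlgEquiv y - E * y)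
          + E * (V.conjStarAlgEquiv y - E ^ N * y) := by
      rw [conj_trans, map_sub, map_mul, h1, pow_succ', mul_sub, mul_assoc]
      abel
    rw [e]
    refine (norm_add_le _ _).trans ?_
    rw [norm_conj]
    have := (norm_mul_le E _).trans (mul_le_mul hE1 (h2 y) (norm_nonneg _) zero_le_one)
    push_cast
    linarith

/-- A skew trigonometric polynomial in the last generator. -/
noncomputable def xx (n : ℕ) (r : ℕ → ℝ) : MonoidAlgebra ℂ G4 :=
  ∑ j ∈ range n, (r j : ℂ) • (og (vv ^ j) - og (vv ^ j)⁻¹)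

theorem Lam_xx (n : ℕ) (r : ℕ → ℝ) : Lam (xx n r) = cfc (trig n r) (lam vv) := by
  rw [cfc_trig (isStarNormal_of_mem_unitary (lam_mem_unitary vv)), xx, map_sum]
  refine sum_congr rfl fun j _ => ?_
  rw [map_smul, map_sub, Lam_og, Lam_og, star_lam, ← map_pow, ← map_pow, inv_pow]

/-- Linear combinations of conjugates of `xx n r`. -/
noncomputable def TT (n : ℕ) (r : ℕ → ℝ) : (G3 →₀ ℂ) →ₗ[ℂ] MonoidAlgebra ℂ G4 :=
  Finsupp.linearCombination ℂ fun g => og (inc g) * xx n r * og (inc g)⁻¹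

theorem conj_xx (n : ℕ) (r : ℕ → ℝ) (y : G4) : og y * xx n r * og y⁻¹
    = ∑ j ∈ range n, (r j : ℂ) • (og (y * vv ^ j * y⁻¹) - og (y * (vv ^ j)⁻¹ * y⁻¹)) := by
  rw [xx, mul_sum, sum_mul]
  refine sum_congr rfl fun j _ => ?_
  rw [mul_smul_comm, smul_mul_assoc, mul_sub, sub_mul, og_mul, og_mul, og_mul, og_mul]

theorem norm_TT_le (n : ℕ) (r : ℕ → ℝ) (f : G3 →₀ ℂ) {ε : ℝ} (hε : 0 ≤ ε)
    (hf : ∑ y ∈ f.support, ‖f y‖ ^ 2 ≤ ε ^ 2) :
    ‖Lam (TT n r f)‖ ≤ (∑ j ∈ range n, 4 * |r j|) * ε := by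
  have hs : √(∑ y ∈ f.support, ‖f y‖ ^ 2) ≤ ε := Real.sqrt_le_iff.2 ⟨hε, hf⟩
  have e : Lam (TT n r f) = ∑ j ∈ range n, (r j : ℂ) •
      (∑ g ∈ f.support, f g • lam (inc g * vv ^ j * (inc g)⁻¹)
        - ∑ g ∈ f.support, f g • lam (inc g * (vv ^ j)⁻¹ * (inc g)⁻¹)) := by
    rw [TT, Finsupp.linearCombination_apply, Finsupp.sum, map_sum]
    simp only [conj_xx, map_smul, map_sum, map_sub, Lam_og, smul_sum, ← sum_sub_distrib]
    rw [sum_comm]
    refine sum_congr rfl fun j _ => sum_congr rfl fun g _ => ?_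
    rw [smul_comm, smul_sub (f g)]
  rw [e, sum_mul]
  refine (norm_sum_le _ _).trans (sum_le_sum fun j _ => ?_)
  rw [norm_smul, Complex.norm_real, Real.norm_eq_abs]
  rcases eq_or_ne j 0 with rfl | hj
  · simp only [pow_zero, inv_one, sub_self, norm_zero, mul_zero]
    positivity
  · have h1 := leinert label f.support (fun g => inc g * vv ^ j * (inc g)⁻¹) f
      fun g _ h hh => (label_conj g hj h hh).1
    have h2 := leinert label f.support (fun g => inc g * (vv ^ j)⁻¹ * (inc g)⁻¹) f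
      fun g _ h hh => (label_conj g hj h hh).2
    have h3 := (norm_sub_le _ _).trans (add_le_add h1 h2)
    calc _ ≤ |r j| * (4 * ε) := by gcongr; linarith
      _ = _ := by ring

theorem star_TT (n : ℕ) (r : ℕ → ℝ) (f : G3 →₀ ℂ) (hf : ∀ g, star (f g) = f g) :
    star (Lam (TT n r f)) = -Lam (TT n r f) := by
  rw [TT, Finsupp.linearCombination_apply, Finsupp.sum, map_sum, star_sum, ← sum_neg_distrib]
  refine sum_congr rfl fun g _ => ?_
  rw [map_smul, star_smul, hf, ← smul_neg, conj_xx, map_sum, star_sum, ← sum_neg_distrib]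
  congr 1
  refine sum_congr rfl fun j _ => ?_
  rw [map_smul, star_smul, map_sub, star_sub, Lam_og, Lam_og, star_lam, star_lam, ← smul_neg,
    neg_sub]
  simp [mul_assoc]

theorem TT_mem_conjSpan (n : ℕ) (r : ℕ → ℝ) (f : G3 →₀ ℂ) : TT n r f ∈ conjSpan vv := by
  rw [TT, Finsupp.linearCombination_apply, Finsupp.sum]
  refine sum_mem fun g _ => Submodule.smul_mem _ _ ?_
  rw [conj_xx]
  refine sum_mem fun j _ => Submodule.smul_mem _ _ (sub_mem ?_ ?_)
  · exact Submodule.subset_span ⟨inc g, j, by rw [zpow_natCast]⟩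
  · exact Submodule.subset_span ⟨inc g, -j, by rw [zpow_neg, zpow_natCast]⟩

theorem conj_TT (n : ℕ) (r : ℕ → ℝ) (f : G3 →₀ ℂ) (u : G3) :
    og (inc u) * TT n r f * og (inc u)⁻¹
      = TT n r (Finsupp.equivMapDomain (Equiv.mulLeft u) f) := by
  rw [TT, Finsupp.linearCombination_equivMapDomain, Finsupp.linearCombination_apply,
    Finsupp.linearCombination_apply, Finsupp.sum, Finsupp.sum, mul_sum, sum_mul]
  refine sum_congr rfl fun g _ => ?_
  rw [mul_smul_comm, smul_mul_assoc]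
  simp only [Function.comp, Equiv.coe_mulLeft, map_mul inc, mul_inv_rev, og_mul, mul_assoc]

theorem TT_single (n : ℕ) (r : ℕ → ℝ) : TT n r (Finsupp.single 1 1) = xx n r := by
  rw [TT, Finsupp.linearCombination_single, one_smul, map_one inc, inv_one, og_one, one_mul, mul_one]

theorem deriv_uu {δ : Module.End ℂ (MonoidAlgebra ℂ G4)}
    (h1 : ∀ x y, δ (x * y) = δ x * y + x * δ y) {X : MonoidAlgebra ℂ G4}
    (h0 : δ (og (FreeGroup.of 0)) = X * og (FreeGroup.of 0))
    (ha : δ (og (FreeGroup.of 1)) = 0) (hb : δ (og (FreeGroup.of 2)) = 0) (m : ℕ) :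
    δ (og (inc (uu m)))
      = (∑ p ∈ range m, og (inc (uu p)) * X * og (inc (uu p))⁻¹) * og (inc (uu m)) := by
  have hinv : ∀ g, δ (og g) = 0 → δ (og g⁻¹) = 0 := fun g hg => by
    rw [deriv_inv h1, hg, mul_zero, zero_mul, neg_zero]
  have hmul : ∀ g h, δ (og g) = 0 → δ (og h) = 0 → δ (og (g * h)) = 0 := fun g h hg hh => by
    rw [og_mul, h1, hg, hh, mul_zero, zero_mul, add_zero]
  have ht : ∀ p, δ (og (inc (tt p))) = 0 := by
    intro p
    have := deriv_zpow h1 ha p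
    rw [zpow_natCast] at this
    rw [tt, map_mul inc, map_mul inc, map_inv, map_pow, inc_of, inc_of]
    exact hmul _ _ (hmul _ _ this hb) (hinv _ this)
  induction m with
  | zero => rw [uu, ht, sum_range_zero, zero_mul]
  | succ m ih =>
    have k : δ (og (inc ((tt m)⁻¹ * tt (m + 1)))) = 0 := by
      rw [map_mul inc, map_inv]
      exact hmul _ _ (hinv _ (ht _)) (ht _)
    have e0 : inc (FreeGroup.of 0) = FreeGroup.of 0 := inc_of 0
    rw [sum_range_succ, uu, map_mul inc, map_mul inc, og_mul, og_mul, h1, h1, k, ih, e0, h0]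
    simp only [mul_zero, add_zero, add_mul, mul_assoc]
    rw [← mul_assoc (og (inc (uu m))⁻¹), og_inv_mul, one_mul]

theorem norm_mul_lam_le {G : Type} [Group G] (T : Bdd (L2 G)) (g : G) : ‖T * lam g‖ ≤ ‖T‖ :=
  (norm_mul_le _ _).trans (mul_le_of_le_one_right (norm_nonneg _) (norm_lam_le g))

theorem arith1 {t ε a b c K : ℝ} (ht : 0 ≤ t) (hε : 0 ≤ ε) (h1 : a ≤ b + t * c)
    (h2 : b ≤ K * t ^ 2) (h3 : t * K ≤ ε / 3) (h4 : c ≤ ε / 3) : a ≤ t * ε := by
  have := mul_le_mul_of_nonneg_left h3 ht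
  have := mul_le_mul_of_nonneg_left h4 ht
  have := mul_nonneg ht hε
  nlinarith

theorem arith2 {t ε a b c d K L : ℝ} (ht : 0 ≤ t) (h1 : a ≤ b + t * c)
    (h2 : b ≤ K * t ^ 2) (h3 : t * c ≤ t * (ε / 3)) (h4 : d ≤ L ^ 2 * t ^ 2)
    (h5 : t * (K + L ^ 2) ≤ ε / 3) : a + d ≤ t * (2 * ε / 3) := by
  have := mul_le_mul_of_nonneg_left h5 ht
  nlinarith

theorem key00 {ε : ℝ} (hε : 0 < ε) :
    ∃ W : L2 G4 ≃ₗᵢ[ℂ] L2 G4, IsStd W ∧ ∃ w : G3,
      (∀ j : Fin 4, j ≠ 0 → W.conjStarAlgEquiv (lam (FreeGroup.of j)) = lam (FreeGroup.of j)) ∧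
      (∀ j : Fin 4, ‖W.conjStarAlgEquiv (lam (FreeGroup.of j)) - lam (FreeGroup.of j)‖ ≤ ε) ∧
      ‖W (dl (inc w)) - dl (vv * inc w)‖ ≤ ε := by
  obtain ⟨n, r, hnr⟩ := exists_circle (v := vv) vv_pow_ne_one (ε := ε / 3) (by positivity)
  set Kx : ℝ := ∑ j ∈ range n, 4 * |r j| with hKx
  set Kc : ℝ := ∑ j ∈ range n, 2 * |r j| with hKc
  have hKx0 : 0 ≤ Kx := by positivity
  obtain ⟨m, c, e, hc0, hc, he, hce⟩ := exists_tree3 (ε := ε / 3 / (Kx + 1)) (by positivity)
  have hsmall : Kx * (ε / 3 / (Kx + 1)) ≤ ε / 3 := by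
    rw [mul_div_assoc', div_le_iff₀ (by positivity)]
    nlinarith
  have hTc := (norm_TT_le n r c (by positivity) hc).trans hsmall
  have hTe := (norm_TT_le n r e (by positivity) he).trans hsmall
  set X : Fin 4 → MonoidAlgebra ℂ G4 := fun j => if j = 0 then TT n r c else 0 with hX
  obtain ⟨L, B, hB⟩ := exists_bd (TT n r c)
  have hB0 := hB.nonneg
  obtain ⟨δ, h1, h2, R, hR, K, hK⟩ := exists_free_flow X (L := L) (H := B + 1) (by positivity)
    (fun j => by
      simp only [hX]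
      split_ifs
      · exact hB.mono (by linarith)
      · exact Bd.zero.mono (by linarith))
    (fun j => by
      simp only [hX]
      split_ifs
      · exact star_TT n r c hc0
      · simp)
    (Fin.last 3) (by simp [hX])
    (fun j => by
      simp only [hX]
      split_ifs
      · exact TT_mem_conjSpan n r c
      · exact zero_mem _)
  have hδw : δ (og (inc (uu m))) = (xx n r + TT n r e) * og (inc (uu m)) := by
    rw [deriv_uu h1 (X := TT n r c) (by rw [h2]; simp [hX]) (by rw [h2]; simp [hX])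
      (by rw [h2]; simp [hX])]
    simp only [conj_TT]
    rw [← map_sum, hce, map_add, TT_single]
  have hlim : ∀ a b : ℝ, 0 < b → ∀ᶠ N : ℕ in atTop, 1 / ((N : ℝ) + 1) * a ≤ b := by
    intro a b hb
    have := (tendsto_one_div_add_atTop_nhds_zero_nat (𝕜 := ℝ)).mul_const a
    rw [zero_mul] at this
    exact this.eventually (ge_mem_nhds hb)
  obtain ⟨N, hN1, hN2, hN3, hN4⟩ := ((hlim R (1 / 4) (by norm_num)).and ((hlim Kc 1 one_pos).and
    ((hlim (K (og (inc (uu m))) + Kc ^ 2) (ε / 3) (by positivity)).and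
      (eventually_all.2 fun j : Fin 4 =>
        hlim (K (og (FreeGroup.of j))) (ε / 3) (by positivity))))).exists
  set t : ℝ := 1 / ((N : ℝ) + 1) with ht
  have ht0 : 0 < t := by positivity
  have hNt : ((N + 1 : ℕ) : ℝ) * t = 1 := by
    rw [ht]
    push_cast
    field_simp
  have htn : ‖(t : ℂ)‖ = t := by simp [abs_of_pos ht0]
  obtain ⟨W, hW, hWx⟩ := hK t ht0.le hN1
  obtain ⟨V, hV, hVx⟩ := exists_iterate hW (N + 1)
  refine ⟨V, hV, uu m, fun j hj => ?_, fun j => ?_, ?_⟩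
  · have := (hWx (og (FreeGroup.of j))).2 (by rw [h2]; simp [hX, hj])
    rw [Lam_og] at this
    exact (hVx _ this (norm_lam_le _)).1
  · have k1 := (hVx 1 (map_one _) ContinuousLinearMap.norm_id_le).2 (lam (FreeGroup.of j))
    rw [one_pow, one_mul] at k1
    have k2 := (hWx (og (FreeGroup.of j))).1
    rw [Lam_og, h2, map_mul, Lam_og] at k2
    have k3 : ‖Lam (X j) * lam (FreeGroup.of j)‖ ≤ ε / 3 := by
      refine (norm_mul_lam_le _ _).trans ?_
      simp only [hX]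
      split_ifs
      · exact hTc
      · rw [map_zero, norm_zero]; positivity
    have k4 := norm_add_le (W.conjStarAlgEquiv (lam (FreeGroup.of j)) - lam (FreeGroup.of j)
      - (t : ℂ) • (Lam (X j) * lam (FreeGroup.of j))) ((t : ℂ) • (Lam (X j) * lam (FreeGroup.of j)))
    rw [sub_add_cancel, norm_smul, htn] at k4
    have k5 : ‖W.conjStarAlgEquiv (lam (FreeGroup.of j)) - lam (FreeGroup.of j)‖ ≤ t * ε := by
      exact arith1 ht0.le hε.le k4 k2 (hN4 j) k3
    calc _ ≤ _ := k1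
      _ ≤ ((N + 1 : ℕ) : ℝ) * (t * ε) := by gcongr
      _ = ε := by rw [← mul_assoc, hNt, one_mul]
  · have hN : IsStarNormal (lam vv) := isStarNormal_of_mem_unitary (lam_mem_unitary vv)
    have hWv : W.conjStarAlgEquiv (lam vv) = lam vv := by
      have := (hWx (og vv)).2 (by rw [vv, h2]; simp [hX])
      rwa [Lam_og] at this
    set y : Bdd (L2 G4) := lam (inc (uu m)) with hy
    set E : Bdd (L2 G4) := ex n r (lam vv) t with hE
    have k1 := (hVx E (map_ex hN n r t _ hWv) (norm_ex_le _ _ _ _)).2 y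
    rw [hE, ex_pow hN, hNt, ← hE] at k1
    have k2 := (hWx (og (inc (uu m)))).1
    rw [Lam_og, hδw, map_mul, Lam_og, map_add, Lam_xx, ← hy] at k2
    have k3 := norm_ex_sub_le (lam_mem_unitary vv) n r ht0.le hN2
    rw [← hE, ← hKc] at k3
    have k4 : W.conjStarAlgEquiv y - E * y
        = (W.conjStarAlgEquiv y - y - (t : ℂ) • ((cfc (trig n r) (lam vv) + Lam (TT n r e)) * y))
          + (t : ℂ) • (Lam (TT n r e) * y) - (E - 1 - (t : ℂ) • cfc (trig n r) (lam vv)) * y := by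
      simp only [sub_mul, add_mul, smul_add, one_mul, smul_mul_assoc]
      abel
    have k5 : ‖W.conjStarAlgEquiv y - E * y‖ ≤ t * (2 * ε / 3) := by
      rw [k4]
      refine (norm_sub_le _ _).trans ?_
      have a1 := norm_add_le
        (W.conjStarAlgEquiv y - y - (t : ℂ) • ((cfc (trig n r) (lam vv) + Lam (TT n r e)) * y))
        ((t : ℂ) • (Lam (TT n r e) * y))
      rw [norm_smul, htn] at a1
      have a2 := mul_le_mul_of_nonneg_left ((norm_mul_lam_le _ (inc (uu m))).trans hTe) ht0.le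
      have a3 := (norm_mul_lam_le _ (inc (uu m))).trans k3
      rw [← hy] at a2 a3
      exact arith2 ht0.le a1 k2 a2 a3 hN3
    have k6 : ‖V.conjStarAlgEquiv y - ex n r (lam vv) 1 * y‖ ≤ 2 * ε / 3 := by
      calc _ ≤ _ := k1
        _ ≤ ((N + 1 : ℕ) : ℝ) * (t * (2 * ε / 3)) := by gcongr
        _ = _ := by rw [← mul_assoc, hNt, one_mul]
    have k7 : V (dl (inc (uu m))) - dl (vv * inc (uu m))
        = (V.conjStarAlgEquiv y - ex n r (lam vv) 1 * y) (dl 1)
          + (ex n r (lam vv) 1 - lam vv) (dl (inc (uu m))) := by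
      rw [sub_apply, sub_apply, hV.conj_apply, mul_apply_eq_comp, hy, lam_dl, mul_one, lam_dl]
      abel
    rw [k7]
    refine (norm_add_le _ _).trans ?_
    rw [norm_vN_apply_dl (sub_mem (ex_mem_vN n r vv 1) (lam_mem_vN vv))]
    have k8 := (V.conjStarAlgEquiv y - ex n r (lam vv) 1 * y).le_opNorm (dl 1)
    rw [norm_dl, mul_one] at k8
    linarith

theorem key0 {ε : ℝ} (hε : 0 < ε) :
    ∃ W : L2 G4 ≃ₗᵢ[ℂ] L2 G4, IsStd W ∧ ∃ w : G3,
      (∀ j : Fin 4, ‖W.conjStarAlgEquiv (lam (FreeGroup.of j)) - lam (FreeGroup.of j)‖ ≤ ε) ∧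
      ‖W (dl (inc w)) - dl (vv * inc w)‖ ≤ ε := by
  obtain ⟨W, hW, w, -, h⟩ := key00 hε
  exact ⟨W, hW, w, h⟩

end Vale.Agent.P086
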