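import Vale.Agent.P086.Regular

/-! The ping-pong norm estimate for free families. -/

set_option linter.unusedSectionVars false

namespace Vale.Agent.P086

open scoped InnerProductSpace

section Words

variable {I : Type} [DecidableEq I]

theorem toWord_letter_mul (p : I × Bool) (g : FreeGroup I) :
    (FreeGroup.mk [p] * g).toWord =
      if g.toWord.head? = some (p.1, !p.2) then g.toWord.tail else p :: g.toWord := by
  rw [FreeGroup.toWord_mul, FreeGroup.toWord_mk, FreeGroup.reduce_singleton, List.singleton_append,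
    FreeGroup.reduce.cons, FreeGroup.reduce_toWord]
  rcases g.toWord with _ | ⟨q, l⟩
  · simp
  · obtain ⟨a, b⟩ := p
    obtain ⟨c, d⟩ := q
    simp only [List.head?_cons, Option.some.injEq, Prod.mk.injEq, List.tail_cons]
    refine if_congr ?_ rfl rfl
    cases b <;> cases d <;> simp [eq_comm]

/-- The generator with which a reduced word starts. -/
def hd0 (g : FreeGroup I) : Option I := g.toWord.head?.map Prod.fst

theorem head_pow_mul (p : I × Bool) (g : FreeGroup I) (hg : hd0 g ≠ some p.1) (n : ℕ) :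
    (FreeGroup.mk [p] ^ (n + 1) * g).toWord.head? = some p := by
  induction n with
  | zero =>
    rw [zero_add, pow_one, toWord_letter_mul, if_neg]
    · rfl
    · intro h
      apply hg
      rw [hd0, h]
      rfl
  | succ n ih =>
    rw [pow_succ', mul_assoc, toWord_letter_mul, if_neg]
    · rfl
    · rw [ih]
      obtain ⟨a, b⟩ := p
      simp

theorem hd0_pow_mul (i : I) (g : FreeGroup I) (hg : hd0 g ≠ some i) {n : ℕ} (hn : n ≠ 0) :
    hd0 (FreeGroup.of i ^ n * g) = some i ∧ hd0 ((FreeGroup.of i ^ n)⁻¹ * g) = some i := by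
  obtain ⟨m, rfl⟩ := Nat.exists_eq_succ_of_ne_zero hn
  constructor
  · have := head_pow_mul (i, true) g hg m
    rw [hd0]
    erw [this]
    rfl
  · have := head_pow_mul (i, false) g hg m
    rw [hd0, ← inv_pow]
    erw [this]
    rfl

end Words

variable {G : Type} [Group G]

theorem hasSum_norm_sq (ξ : L2 G) : HasSum (fun g => ‖ξ g‖ ^ 2) (‖ξ‖ ^ 2) := by
  simpa using lp.hasSum_norm (p := 2) (by norm_num) ξ

theorem norm_sum_sq_of_supp {I : Type} (hd : G → Option I) (s : Finset I) (η : I → L2 G)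
    (h : ∀ i ∈ s, ∀ g, hd g ≠ some i → η i g = 0) :
    ‖∑ i ∈ s, η i‖ ^ 2 = ∑ i ∈ s, ‖η i‖ ^ 2 := by
  classical
  refine (hasSum_norm_sq _).unique ?_
  refine hasSum_congr' (hasSum_sum fun i _ => hasSum_norm_sq (η i)) fun g => ?_
  rw [lp.coeFn_sum, Finset.sum_apply]
  by_cases hg : ∃ i ∈ s, hd g = some i
  · obtain ⟨i, hi, hgi⟩ := hg
    have key : ∀ j ∈ s, j ≠ i → η j g = 0 := fun j hj hji =>
      h j hj g (by rw [hgi]; simpa using hji.symm)
    rw [Finset.sum_eq_single_of_mem i hi key, Finset.sum_eq_single_of_mem i hi]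
    intro j hj hji
    rw [key j hj hji]
    simp
  · push Not at hg
    rw [Finset.sum_eq_zero fun i hi => h i hi g (hg i hi), Finset.sum_eq_zero]
    · simp
    · intro i hi
      rw [h i hi g (hg i hi)]
      simp

open Classical in
/-- Restriction of a vector to a subset. -/
noncomputable def restr (E : Set G) (ξ : L2 G) : L2 G :=
  ⟨fun g => if g ∈ E then ξ g else 0, (lp.memℓp ξ).mono' fun g => by split_ifs <;> simp⟩

open Classical in
theorem restr_apply (E : Set G) (ξ : L2 G) (g : G) : restr E ξ g = if g ∈ E then ξ g else 0 := rfl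

theorem leinert {I : Type} (hd : G → Option I) (s : Finset I) (y : I → G) (c : I → ℂ)
    (hy : ∀ i ∈ s, ∀ g, hd g ≠ some i → hd (y i * g) = some i) :
    ‖∑ i ∈ s, c i • lam (y i)‖ ≤ 2 * √(∑ i ∈ s, ‖c i‖ ^ 2) := by
  classical
  refine ContinuousLinearMap.opNorm_le_bound _ (by positivity) fun ξ => ?_
  set a : I → L2 G := fun i => restr {g | hd g = some i} ξ with ha
  have e : (∑ i ∈ s, c i • lam (y i)) ξ
      = ∑ i ∈ s, c i • lam (y i) (a i) + ∑ i ∈ s, c i • lam (y i) (ξ - a i) := by
    rw [← Finset.sum_add_distrib, sum_apply]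
    refine Finset.sum_congr rfl fun i _ => ?_
    rw [← smul_add, ← map_add, add_sub_cancel, smul_apply]
  set C := √(∑ i ∈ s, ‖c i‖ ^ 2) with hC
  have hC0 : 0 ≤ C := Real.sqrt_nonneg _
  have hC2 : C ^ 2 = ∑ i ∈ s, ‖c i‖ ^ 2 := Real.sq_sqrt (by positivity)
  have h1 : ‖∑ i ∈ s, c i • lam (y i) (a i)‖ ≤ C * ‖ξ‖ := by
    have k1 : ∑ i ∈ s, ‖a i‖ ^ 2 ≤ ‖ξ‖ ^ 2 := by
      rw [← norm_sum_sq_of_supp hd s a fun i _ g hg => by simp [ha, restr_apply, hg]]
      gcongr
      refine lp.norm_mono (by norm_num) fun g => ?_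
      rw [lp.coeFn_sum, Finset.sum_apply]
      simp only [ha, restr_apply, Set.mem_ofPred_eq]
      rcases hg : hd g with _ | j
      · simp
      · simp only [Option.some.injEq]
        rw [Finset.sum_ite_eq]
        split_ifs <;> simp
    have k2 : ‖∑ i ∈ s, c i • lam (y i) (a i)‖ ≤ ∑ i ∈ s, ‖c i‖ * ‖a i‖ := by
      refine (norm_sum_le _ _).trans (le_of_eq (Finset.sum_congr rfl fun i _ => ?_))
      rw [norm_smul, norm_unitary_apply (lam_mem_unitary _)]
    refine k2.trans (abs_le_of_sq_le_sq' ?_ (by positivity)).2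
    refine (Finset.sum_mul_sq_le_sq_mul_sq _ _ _).trans ?_
    rw [mul_pow, hC2]
    gcongr
  have h2 : ‖∑ i ∈ s, c i • lam (y i) (ξ - a i)‖ ≤ C * ‖ξ‖ := by
    refine (abs_le_of_sq_le_sq' ?_ (by positivity)).2
    rw [norm_sum_sq_of_supp hd s, mul_pow, hC2, Finset.sum_mul]
    · refine Finset.sum_le_sum fun i _ => ?_
      rw [norm_smul, norm_unitary_apply (lam_mem_unitary _), mul_pow]
      gcongr
      refine lp.norm_mono (by norm_num) fun g => ?_
      simp only [ha, lp.coeFn_sub, Pi.sub_apply, restr_apply]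
      split_ifs <;> simp
    · intro i hi g hg
      have k : hd ((y i)⁻¹ * g) = some i := by
        by_contra hcon
        have := hy i hi _ hcon
        rw [mul_inv_cancel_left] at this
        exact hg this
      rw [lp.coeFn_smul, Pi.smul_apply, lam_apply]
      simp [ha, restr_apply, k]
  rw [e]
  refine (norm_add_le _ _).trans ?_
  linarith

end Vale.Agent.P086
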