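import Vale.Agent.P086.Stage

/-! The Baire category argument. -/

set_option linter.unusedSectionVars false

namespace Vale.Agent.P086

open Finset Filter Topology
open scoped InnerProductSpace

/-- Triples of unitaries. -/
abbrev XX : Type := Fin 3 → unitary (Bdd (L2 G4))

/-- The representation of the free group given by a triple of unitaries. -/
noncomputable def rep (A : XX) : G3 →* Bdd (L2 G4) :=
  (unitary (Bdd (L2 G4))).subtype.comp (FreeGroup.lift A)

theorem rep_of (A : XX) (j : Fin 3) : rep A (FreeGroup.of j) = A j := by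
  simp [rep]

theorem star_rep (A : XX) (g : G3) : star (rep A g) = rep A g⁻¹ := by
  change star ((FreeGroup.lift A g : unitary _) : Bdd (L2 G4))
    = ((FreeGroup.lift A g⁻¹ : unitary _) : Bdd (L2 G4))
  rw [map_inv]
  rfl

theorem continuous_rep (g : G3) : Continuous fun A : XX => rep A g := by
  induction g using FreeGroup.induction_on with
  | C1 => simp only [map_one]; exact continuous_const
  | of j => simp only [rep_of]; fun_prop
  | inv_of j h => simp only [← star_rep]; exact h.star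
  | mul x y hx hy => simp only [map_mul]; exact hx.mul hy

/-- Triples conjugate to the first three generators. -/
def Z0 : Set XX :=
  {A | ∃ U : L2 G4 ≃ₗᵢ[ℂ] L2 G4, IsStd U ∧ ∀ g, rep A g = U.conjStarAlgEquiv (lam (inc g))}

theorem exists_Z0 {U : L2 G4 ≃ₗᵢ[ℂ] L2 G4} :
    ∃ A : XX, ∀ g, rep A g = U.conjStarAlgEquiv (lam (inc g)) := by
  set π : G3 →* Bdd (L2 G4) :=
    (U.conjStarAlgEquiv : Bdd (L2 G4) →* Bdd (L2 G4)).comp (lam.comp inc) with hπ
  have hπ' : ∀ g, π g = U.conjStarAlgEquiv (lam (inc g)) := fun g => rfl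
  have hs : ∀ g, star (π g) = π g⁻¹ := fun g => by
    rw [hπ', hπ', ← map_star, star_lam, map_inv inc]
  refine ⟨fun j => ⟨π (FreeGroup.of j), mem_unitary_of_star π hs _⟩, fun g => ?_⟩
  rw [← hπ']
  induction g using FreeGroup.induction_on with
  | C1 => rw [map_one, map_one]
  | of j => rw [rep_of]
  | inv_of j h => rw [← star_rep, h, hs]
  | mul x y hx hy => rw [map_mul, map_mul, hx, hy]

/-- Triples whose words approximate a given basis vector. -/
def OO (p : G4 × ℕ) : Set XX :=
  {A | ∃ (s : Finset G4) (r : G4 → ℂ) (q : G4 → G3),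
    ‖dl p.1 - ∑ γ ∈ s, r γ • rep A (q γ) (dl 1)‖ < 1 / ((p.2 : ℝ) + 1)}

theorem isOpen_OO (p : G4 × ℕ) : IsOpen (OO p) := by
  simp only [OO, Set.ofPred_exists]
  refine isOpen_iUnion fun s => isOpen_iUnion fun r => isOpen_iUnion fun q => ?_
  refine isOpen_lt ?_ continuous_const
  refine (continuous_const.sub (continuous_finsetSum _ fun γ _ => ?_)).norm
  exact ((continuous_rep _).clm_apply continuous_const).const_smul (r γ)

theorem closure_Z0_subset (p : G4 × ℕ) : closure Z0 ⊆ closure (Z0 ∩ OO p) := by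
  refine closure_minimal ?_ isClosed_closure
  rintro A ⟨U, hU, hA⟩
  rw [Metric.mem_closure_iff]
  intro ε hε
  obtain ⟨U', hU', h1, s, r, q, h2⟩ := stage hU (dl p.1) (ε := min ε (1 / ((p.2 : ℝ) + 1)))
    (by positivity)
  obtain ⟨B, hB⟩ := exists_Z0 (U := U')
  refine ⟨B, ⟨⟨U', hU', hB⟩, s, r, q, ?_⟩, ?_⟩
  · simp only [hB, ← hU'.apply_dl]
    exact h2.trans_le (min_le_right _ _)
  · rw [dist_comm, dist_pi_lt_iff hε]
    intro j
    rw [Subtype.dist_eq, dist_eq_norm, ← rep_of, ← rep_of, hA, hB]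
    exact (h1 j).trans_le (min_le_left _ _)

theorem exists_generic : ∃ A ∈ closure Z0, ∀ p, A ∈ OO p := by
  have : CompleteSpace (unitary (Bdd (L2 G4))) := isClosed_unitary.completeSpace_coe
  have : CompleteSpace (closure Z0) := isClosed_closure.completeSpace_coe
  obtain ⟨A, hA⟩ := exists_Z0 (U := LinearIsometryEquiv.refl ℂ _)
  have : Nonempty (closure Z0) := ⟨⟨A, subset_closure ⟨_, IsStd.refl, hA⟩⟩⟩
  have h := dense_iInter_of_isOpen (f := fun p => (Subtype.val : closure Z0 → XX) ⁻¹' OO p)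
    (fun p => (isOpen_OO p).preimage continuous_subtype_val) (fun p => by
      rw [Subtype.dense_iff]
      refine (closure_Z0_subset p).trans (closure_mono ?_)
      rintro B ⟨h1, h2⟩
      exact ⟨⟨B, subset_closure h1⟩, h2, rfl⟩)
  obtain ⟨B, hB⟩ := h.nonempty
  exact ⟨B, B.2, fun p => Set.mem_iInter.1 hB p⟩

theorem iso34 : VNIso (groupVN (FreeGroup (Fin 3))) (groupVN (FreeGroup (Fin 4))) := by
  classical
  obtain ⟨A, hA, hO⟩ := exists_generic
  have key : ∀ (g : G3) (S : Set (Bdd (L2 G4))), IsClosed S →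
      (∀ U : L2 G4 ≃ₗᵢ[ℂ] L2 G4, IsStd U → U.conjStarAlgEquiv (lam (inc g)) ∈ S) →
      rep A g ∈ S := by
    intro g S hS h
    refine closure_minimal (t := (fun A => rep A g) ⁻¹' S) ?_ (hS.preimage (continuous_rep g)) hA
    rintro B ⟨U, hU, hB⟩
    rw [Set.mem_preimage, hB]
    exact h U hU
  obtain ⟨W, hW, -⟩ := exists_transfer (rep A)
    (fun g => key g _ isClosed_vN fun U hU => (hU.2 _).2 (lam_mem_vN _)) (star_rep A)
    (fun g hg => key g {T | tr T = 0} (isClosed_eq tr.continuous continuous_const) fun U hU => by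
      rw [Set.mem_ofPred_eq, hU.tr_conj, tr_lam, if_neg]
      intro h
      exact hg (FreeGroup.map_injective (Fin.castSucc_injective 3) (h.trans (map_one inc).symm)))
    (fun ξ hξ => by
      refine lp.ext (funext fun γ => ?_)
      change ξ γ = 0
      rw [← inner_dl_left, ← norm_le_zero_iff]
      have hlim := (tendsto_one_div_add_atTop_nhds_zero_nat (𝕜 := ℝ)).mul_const ‖ξ‖
      rw [zero_mul] at hlim
      refine ge_of_tendsto' hlim fun n => ?_
      obtain ⟨s, r, q, h⟩ := hO (γ, n)
      have e : ⟪dl γ, ξ⟫_ℂ = ⟪dl γ - ∑ γ ∈ s, r γ • rep A (q γ) (dl 1), ξ⟫_ℂ := by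
        rw [inner_sub_left, sum_inner]
        simp only [inner_smul_left, hξ, mul_zero, sum_const_zero, sub_zero]
      rw [e]
      exact (norm_inner_le_norm _ _).trans (mul_le_mul_of_nonneg_right h.le (norm_nonneg _)))
  exact hW.vnIso

end Vale.Agent.P086
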