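import Vale.Agent.P086.Basic

/-! Basic facts on the regular representations, the trace and the commutation theorem. -/

set_option linter.unusedSectionVars false

namespace Vale.Agent.P086

open scoped InnerProductSpace

variable {G : Type} [Group G]

theorem hasSum_congr' {ι E : Type} [AddCommMonoid E] [TopologicalSpace E] {f g : ι → E}
    {a : E} (h : HasSum f a) (hfg : ∀ i, g i = f i) : HasSum g a := by
  rwa [show g = f from funext hfg]

open Classical in
/-- The basis vector at `g`. -/
noncomputable def dl (g : G) : L2 G := lp.single 2 g (1 : ℂ)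

open Classical in
theorem dl_apply (g h : G) : dl g h = if h = g then 1 else 0 := by
  simp [dl, Pi.single_apply]

theorem inner_dl_left (g : G) (ξ : L2 G) : ⟪dl g, ξ⟫_ℂ = ξ g := by
  classical
  unfold dl
  convert lp.inner_single_left (𝕜 := ℂ) g (1 : ℂ) ξ using 1
  simp

theorem norm_dl (g : G) : ‖dl g‖ = 1 := by
  classical
  unfold dl
  convert lp.norm_single (E := fun _ : G => ℂ) (p := 2) (by norm_num) g (1 : ℂ) using 1
  simp

theorem hasSum_dl (ξ : L2 G) : HasSum (fun g => ξ g • dl g) ξ := by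
  classical
  have h := lp.hasSum_single (p := 2) (by norm_num) ξ
  convert h using 2 with g
  apply lp.ext
  funext k
  simp only [lp.coeFn_smul, Pi.smul_apply, dl_apply, lp.single_apply, Pi.single_apply]
  split_ifs <;> simp

theorem op_ext {E : Type} [NormedAddCommGroup E] [NormedSpace ℂ E] {S T : L2 G →L[ℂ] E}
    (h : ∀ g, S (dl g) = T (dl g)) : S = T := by
  ext1 ξ
  have h1 := (hasSum_dl ξ).map S S.continuous
  have h2 := (hasSum_dl ξ).map T T.continuous
  refine h1.unique ?_
  convert h2 using 1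
  funext g
  simp [h g]

theorem hasSum_op_apply (T : Bdd (L2 G)) (ξ : L2 G) (k : G) :
    HasSum (fun g => ξ g * T (dl g) k) (T ξ k) := by
  have h1 := ((hasSum_dl ξ).map T T.continuous).map (innerSL ℂ (dl k)) (innerSL ℂ (dl k)).continuous
  convert h1 using 1
  · funext g
    simp [inner_dl_left]
  · simp [inner_dl_left]

theorem leftReg_apply (g : G) (ξ : L2 G) (h : G) : leftReg g ξ h = ξ (g⁻¹ * h) := rfl

theorem mem_rtranslate (g : G) (ξ : L2 G) : Memℓp (fun h : G => ξ (h * g)) 2 :=
  memℓp_gen ((Equiv.mulRight g).summable_iff.2 ((lp.memℓp ξ).summable (by norm_num)))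

theorem isBoundedLinearMap_rtranslate (g : G) :
    IsBoundedLinearMap ℂ (fun ξ : L2 G => (⟨fun h => ξ (h * g), mem_rtranslate g ξ⟩ : L2 G)) where
  map_add _ _ := rfl
  map_smul _ _ := rfl
  bound := ⟨1, one_pos, fun ξ => by
    rw [one_mul, lp.norm_eq_tsum_rpow (by norm_num), lp.norm_eq_tsum_rpow (by norm_num)]
    apply le_of_eq
    congr 1
    exact (Equiv.mulRight g).tsum_eq fun h => ‖ξ h‖ ^ (2 : ENNReal).toReal⟩

/-- The left regular representation as a monoid homomorphism. -/
noncomputable def lam : G →* Bdd (L2 G) where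
  toFun := leftReg
  map_one' := by
    ext ξ h
    simp [leftReg_apply]
  map_mul' g g' := by
    ext ξ h
    simp [leftReg_apply, mul_assoc]

/-- The right regular representation as a monoid homomorphism. -/
noncomputable def rho : G →* Bdd (L2 G) where
  toFun g := (isBoundedLinearMap_rtranslate g).toContinuousLinearMap
  map_one' := by
    ext ξ h
    change ξ (h * 1) = ξ h
    rw [mul_one]
  map_mul' g g' := by
    ext ξ h
    change ξ (h * (g * g')) = ξ (h * g * g')
    rw [mul_assoc]

theorem lam_apply (g : G) (ξ : L2 G) (h : G) : lam g ξ h = ξ (g⁻¹ * h) := rfl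

theorem rho_apply (g : G) (ξ : L2 G) (h : G) : rho g ξ h = ξ (h * g) := rfl

open Classical in
theorem lam_dl (g h : G) : lam g (dl h) = dl (g * h) := by
  apply lp.ext
  funext k
  rw [lam_apply, dl_apply, dl_apply]
  exact if_congr inv_mul_eq_iff_eq_mul rfl rfl

open Classical in
theorem rho_dl (g h : G) : rho g (dl h) = dl (h * g⁻¹) := by
  apply lp.ext
  funext k
  rw [rho_apply, dl_apply, dl_apply]
  exact if_congr eq_mul_inv_iff_mul_eq.symm rfl rfl

theorem star_apply_dl (T : Bdd (L2 G)) (g h : G) :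
    star T (dl g) h = (starRingEnd ℂ) (T (dl h) g) := by
  rw [← inner_dl_left, ← inner_dl_left, ContinuousLinearMap.star_eq_adjoint,
    ContinuousLinearMap.adjoint_inner_right, inner_conj_symm]

open Classical in
theorem star_lam (g : G) : star (lam g) = lam g⁻¹ := by
  refine op_ext fun h => lp.ext (funext fun k => ?_)
  rw [star_apply_dl, lam_dl, lam_dl, dl_apply, dl_apply]
  have : h = g * k ↔ k = g⁻¹ * h := by
    rw [eq_inv_mul_iff_mul_eq, eq_comm]
  rw [if_congr this rfl rfl]
  split_ifs <;> simp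

open Classical in
theorem star_rho (g : G) : star (rho g) = rho g⁻¹ := by
  refine op_ext fun h => lp.ext (funext fun k => ?_)
  rw [star_apply_dl, rho_dl, rho_dl, dl_apply, dl_apply]
  have : h = k * g⁻¹ ↔ k = h * g⁻¹⁻¹ := by
    rw [inv_inv, eq_mul_inv_iff_mul_eq, eq_comm]
  rw [if_congr this rfl rfl]
  split_ifs <;> simp

theorem mem_unitary_of_star {G' : Type} [Group G'] {A : Type} [Monoid A] [StarMul A] (π : G' →* A)
    (h : ∀ g, star (π g) = π g⁻¹) (g : G') : π g ∈ unitary A := by
  rw [Unitary.mem_iff, h, ← map_mul, ← map_mul]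
  simp

theorem lam_mem_unitary (g : G) : lam g ∈ unitary (Bdd (L2 G)) :=
  mem_unitary_of_star lam star_lam g

theorem rho_mem_unitary (g : G) : rho g ∈ unitary (Bdd (L2 G)) :=
  mem_unitary_of_star rho star_rho g

theorem norm_unitary_apply {U : Bdd (L2 G)} (hU : U ∈ unitary (Bdd (L2 G))) (ξ : L2 G) :
    ‖U ξ‖ = ‖ξ‖ :=
  ContinuousLinearMap.norm_map_of_mem_unitary hU ξ

theorem norm_lam_le (g : G) : ‖lam g‖ ≤ 1 :=
  ContinuousLinearMap.opNorm_le_bound _ zero_le_one fun ξ => by
    rw [norm_unitary_apply (lam_mem_unitary g), one_mul]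

theorem lam_mul_rho (g h : G) : lam g * rho h = rho h * lam g := by
  ext ξ k
  simp [lam_apply, rho_apply, mul_assoc]

variable (G) in
/-- The commutant of the right regular representation. -/
noncomputable def vN : StarSubalgebra ℂ (Bdd (L2 G)) :=
  StarSubalgebra.centralizer ℂ (Set.range rho)

theorem mem_vN {T : Bdd (L2 G)} : T ∈ vN G ↔ ∀ g, rho g * T = T * rho g := by
  rw [vN, StarSubalgebra.mem_centralizer_iff]
  constructor
  · intro h g
    exact (h _ ⟨g, rfl⟩).1
  · rintro h _ ⟨g, rfl⟩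
    exact ⟨h g, by rw [star_rho]; exact h _⟩

theorem lam_mem_vN (g : G) : lam g ∈ vN G := mem_vN.2 fun h => (lam_mul_rho g h).symm

theorem isClosed_vN : IsClosed (vN G : Set (Bdd (L2 G))) := by
  have : (vN G : Set (Bdd (L2 G))) = ⋂ g : G, {T | rho g * T = T * rho g} := by
    ext T
    simp [mem_vN]
  rw [this]
  exact isClosed_iInter fun g => isClosed_eq (by fun_prop) (by fun_prop)

theorem vN_apply_dl {T : Bdd (L2 G)} (hT : T ∈ vN G) (g : G) : T (dl g) = rho g⁻¹ (T (dl 1)) := by
  have h := congrArg (fun S : Bdd (L2 G) => S (dl 1)) (mem_vN.1 hT g⁻¹)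
  simp only [mul_apply_eq_comp] at h
  rw [h, rho_dl]
  simp

theorem norm_vN_apply_dl {T : Bdd (L2 G)} (hT : T ∈ vN G) (g : G) : ‖T (dl g)‖ = ‖T (dl 1)‖ := by
  rw [vN_apply_dl hT, norm_unitary_apply (rho_mem_unitary _)]

/-- The canonical trace. -/
noncomputable def tr : Bdd (L2 G) →L[ℂ] ℂ :=
  (innerSL ℂ (dl 1)).comp (ContinuousLinearMap.apply ℂ (L2 G) (dl 1))

theorem tr_apply (T : Bdd (L2 G)) : tr T = T (dl 1) 1 := by
  simp [tr, inner_dl_left]

open Classical in
theorem tr_lam (g : G) : tr (lam g) = if g = 1 then 1 else 0 := by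
  rw [tr_apply, lam_dl, dl_apply]
  simp [eq_comm]

theorem inner_apply_dl_one (S T : Bdd (L2 G)) : ⟪S (dl 1), T (dl 1)⟫_ℂ = tr (star S * T) := by
  rw [tr_apply, ← inner_dl_left, mul_apply_eq_comp,
    ContinuousLinearMap.star_eq_adjoint, ContinuousLinearMap.adjoint_inner_right]

theorem tr_mul_comm {S T : Bdd (L2 G)} (hS : S ∈ vN G) (hT : T ∈ vN G) :
    tr (S * T) = tr (T * S) := by
  rw [tr_apply, tr_apply]
  have h1 := hasSum_op_apply S (T (dl 1)) 1
  have h2 := hasSum_op_apply T (S (dl 1)) 1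
  refine h1.unique ?_
  rw [← (Equiv.inv G).hasSum_iff] at h2
  refine hasSum_congr' h2 fun g => ?_
  simp only [Function.comp, Equiv.inv_apply]
  rw [vN_apply_dl hS g, vN_apply_dl hT g⁻¹, rho_apply, rho_apply]
  simp [mul_comm]

theorem commute_of_mem_vN {T S : Bdd (L2 G)} (hT : T ∈ vN G) (hS : ∀ g, lam g * S = S * lam g) :
    S * T = T * S := by
  have hS' : ∀ g, S (dl g) = lam g (S (dl 1)) := by
    intro g
    have h := congrArg (fun R : Bdd (L2 G) => R (dl 1)) (hS g)
    simp only [mul_apply_eq_comp] at h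
    rw [h, lam_dl, mul_one]
  refine op_ext fun a => lp.ext (funext fun g => ?_)
  have h1 := hasSum_op_apply S (T (dl a)) g
  have h2 := hasSum_op_apply T (S (dl a)) g
  refine h1.unique ?_
  rw [← ((Equiv.inv G).trans ((Equiv.mulLeft a).trans (Equiv.mulRight g))).hasSum_iff] at h2
  refine hasSum_congr' h2 fun k => ?_
  simp only [Function.comp, Equiv.trans_apply, Equiv.inv_apply, Equiv.coe_mulLeft,
    Equiv.coe_mulRight]
  rw [vN_apply_dl hT a, vN_apply_dl hT (a * k⁻¹ * g), hS' k, hS' a, rho_apply, rho_apply,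
    lam_apply, lam_apply]
  simp [mul_comm, mul_assoc]

theorem mem_vN_iff_lam {T : Bdd (L2 G)} :
    T ∈ vN G ↔ ∀ S : Bdd (L2 G), (∀ g, lam g * S = S * lam g) → S * T = T * S :=
  ⟨fun hT _ hS => commute_of_mem_vN hT hS,
    fun h => mem_vN.2 fun g => h _ fun k => lam_mul_rho k g⟩

theorem mem_groupVN {T : Bdd (L2 G)} : T ∈ (groupVN G).toStarSubalgebra ↔ T ∈ vN G := by
  have key : ∀ S : Bdd (L2 G), S ∈ StarSubalgebra.centralizer ℂ (Set.range (leftReg (G := G))) ↔
      ∀ g, lam g * S = S * lam g := by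
    intro S
    rw [StarSubalgebra.mem_centralizer_iff]
    constructor
    · intro h g
      exact (h _ ⟨g, rfl⟩).1
    · rintro h _ ⟨g, rfl⟩
      refine ⟨h g, ?_⟩
      have : star (leftReg g) = lam g⁻¹ := star_lam g
      rw [this]
      exact h _
  change T ∈ bicomm _ ↔ _
  rw [bicomm, StarSubalgebra.mem_centralizer_iff, mem_vN_iff_lam]
  constructor
  · intro h S hS
    exact (h S ((key S).2 hS)).1
  · intro h S hS
    exact ⟨h S ((key S).1 hS), h _ ((key _).1 (star_mem hS))⟩

end Vale.Agent.P086
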