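import Vale.Agent.P086.Regular

/-! A total family of trace-orthogonal unitaries in `L(G)` gives a spatial isomorphism. -/

set_option linter.unusedSectionVars false

namespace Vale.Agent.P086

open scoped InnerProductSpace

variable {G G' G'' : Type} [Group G] [Group G'] [Group G'']

/-- Unitaries that fix the trace vector and carry one von Neumann algebra onto the other. -/
def IsStd (W : L2 G' ≃ₗᵢ[ℂ] L2 G) : Prop :=
  W (dl 1) = dl 1 ∧ ∀ x, W.conjStarAlgEquiv x ∈ vN G ↔ x ∈ vN G'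

theorem IsStd.refl : IsStd (LinearIsometryEquiv.refl ℂ (L2 G)) := ⟨rfl, fun _ => Iff.rfl⟩

theorem conj_trans (V : L2 G'' ≃ₗᵢ[ℂ] L2 G') (W : L2 G' ≃ₗᵢ[ℂ] L2 G) (x : Bdd (L2 G'')) :
    (V.trans W).conjStarAlgEquiv x = W.conjStarAlgEquiv (V.conjStarAlgEquiv x) := rfl

theorem IsStd.trans {V : L2 G'' ≃ₗᵢ[ℂ] L2 G'} {W : L2 G' ≃ₗᵢ[ℂ] L2 G} (hV : IsStd V)
    (hW : IsStd W) : IsStd (V.trans W) := by
  refine ⟨?_, fun x => ?_⟩
  · rw [LinearIsometryEquiv.trans_apply, hV.1, hW.1]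
  · rw [conj_trans, hW.2, hV.2]

theorem conj_apply_W (W : L2 G' ≃ₗᵢ[ℂ] L2 G) (x : Bdd (L2 G')) (ξ : L2 G') :
    W.conjStarAlgEquiv x (W ξ) = W (x ξ) := by
  simp

theorem IsStd.conj_apply {W : L2 G' ≃ₗᵢ[ℂ] L2 G} (hW : IsStd W) (x : Bdd (L2 G')) :
    W.conjStarAlgEquiv x (dl 1) = W (x (dl 1)) := by
  rw [← hW.1, conj_apply_W]

theorem IsStd.tr_conj {W : L2 G' ≃ₗᵢ[ℂ] L2 G} (hW : IsStd W) (x : Bdd (L2 G')) :
    tr (W.conjStarAlgEquiv x) = tr x := by
  rw [tr_apply, tr_apply, ← inner_dl_left, ← inner_dl_left, hW.conj_apply, ← hW.1,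
    LinearIsometryEquiv.inner_map_map]

theorem norm_conj (W : L2 G' ≃ₗᵢ[ℂ] L2 G) (x : Bdd (L2 G')) :
    ‖W.conjStarAlgEquiv x‖ = ‖x‖ :=
  StarAlgEquiv.norm_map _ _

theorem exists_transfer (π : G' →* Bdd (L2 G)) (hM : ∀ g, π g ∈ vN G)
    (hstar : ∀ g, star (π g) = π g⁻¹) (htr : ∀ g, g ≠ 1 → tr (π g) = 0)
    (htot : ∀ ξ : L2 G, (∀ g, ⟪π g (dl 1), ξ⟫_ℂ = 0) → ξ = 0) :
    ∃ W : L2 G' ≃ₗᵢ[ℂ] L2 G, IsStd W ∧ ∀ g, W.conjStarAlgEquiv (lam g) = π g := by
  classical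
  set v : G' → L2 G := fun g => π g (dl 1) with hv
  have hon : Orthonormal ℂ v := by
    rw [orthonormal_iff_ite]
    intro g h
    rw [hv, inner_apply_dl_one, hstar, ← map_mul]
    split_ifs with hgh
    · subst hgh
      rw [inv_mul_cancel, map_one, ← map_one (lam (G := G)), tr_lam, if_pos rfl]
    · exact htr _ fun h' => hgh (inv_mul_eq_one.1 h')
  have hsp : (Submodule.span ℂ (Set.range v))ᗮ = ⊥ := by
    rw [Submodule.eq_bot_iff]
    intro ξ hξ
    exact htot ξ fun g => hξ _ (Submodule.subset_span ⟨g, rfl⟩)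
  set b := HilbertBasis.mkOfOrthogonalEqBot hon hsp with hb
  set W : L2 G' ≃ₗᵢ[ℂ] L2 G := b.repr.symm with hW
  have hWdl : ∀ g, W (dl g) = π g (dl 1) := by
    intro g
    have h1 := b.repr_symm_single g
    rw [hb, HilbertBasis.coe_mkOfOrthogonalEqBot] at h1
    convert h1 using 2
    unfold dl
    congr
  have hext : ∀ S T : Bdd (L2 G), (∀ g, S (π g (dl 1)) = T (π g (dl 1))) → S = T := by
    intro S T h
    have : S ∘L (W : L2 G' →L[ℂ] L2 G) = T ∘L (W : L2 G' →L[ℂ] L2 G) :=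
      op_ext fun g => by simpa [hWdl] using h g
    ext1 ξ
    obtain ⟨η, rfl⟩ := W.surjective ξ
    exact congrArg (fun R : L2 G' →L[ℂ] L2 G => R η) this
  have hlam : ∀ g, W.conjStarAlgEquiv (lam g) = π g := by
    intro g
    refine hext _ _ fun h => ?_
    rw [← hWdl, conj_apply_W, lam_dl, hWdl, hWdl, map_mul, mul_apply_eq_comp]
  have hrho : ∀ g, ∀ y ∈ vN G, W.conjStarAlgEquiv (rho g) (y (dl 1)) = y (π g⁻¹ (dl 1)) := by
    intro g y hy
    rw [← sub_eq_zero]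
    refine htot _ fun k => ?_
    rw [inner_sub_right, sub_eq_zero]
    have e1 : ⟪π k (dl 1), W.conjStarAlgEquiv (rho g) (y (dl 1))⟫_ℂ
        = ⟪π (k * g) (dl 1), y (dl 1)⟫_ℂ := by
      rw [← ContinuousLinearMap.adjoint_inner_left, ← ContinuousLinearMap.star_eq_adjoint,
        ← map_star, star_rho, ← hWdl, conj_apply_W, rho_dl, hWdl, inv_inv]
    rw [e1, inner_apply_dl_one, ← mul_apply_eq_comp y, inner_apply_dl_one, hstar, hstar,
      mul_inv_rev, map_mul π, mul_assoc, tr_mul_comm (hM _) (mul_mem (hM _) hy), mul_assoc]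
  refine ⟨W, ⟨?_, fun x => ⟨fun hx => ?_, fun hx => ?_⟩⟩, hlam⟩
  · rw [hWdl, map_one]; rfl
  · rw [mem_vN]
    intro g
    apply EquivLike.injective W.conjStarAlgEquiv
    rw [map_mul, map_mul]
    refine hext _ _ fun h => ?_
    rw [mul_apply_eq_comp, mul_apply_eq_comp, hrho g _ (hM h),
      ← mul_apply_eq_comp (W.conjStarAlgEquiv x), hrho g _ (mul_mem hx (hM h)), mul_apply_eq_comp]
  · rw [mem_vN]
    intro k
    have h1 : ∀ g, lam g * W.conjStarAlgEquiv.symm (rho k)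
        = W.conjStarAlgEquiv.symm (rho k) * lam g := by
      intro g
      apply EquivLike.injective W.conjStarAlgEquiv
      rw [map_mul, map_mul, hlam, StarAlgEquiv.apply_symm_apply]
      exact (mem_vN.1 (hM g) k).symm
    have h2 := congrArg W.conjStarAlgEquiv (commute_of_mem_vN hx h1)
    rwa [map_mul, map_mul, StarAlgEquiv.apply_symm_apply] at h2

theorem IsStd.vnIso {W : L2 G' ≃ₗᵢ[ℂ] L2 G} (hW : IsStd W) : VNIso (groupVN G') (groupVN G) := by
  refine ⟨{ toFun := fun x => ⟨W.conjStarAlgEquiv x, ?_⟩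
            invFun := fun y => ⟨W.conjStarAlgEquiv.symm y, ?_⟩
            left_inv := fun x => Subtype.ext (W.conjStarAlgEquiv.symm_apply_apply _)
            right_inv := fun y => Subtype.ext (W.conjStarAlgEquiv.apply_symm_apply _)
            map_mul' := fun x y => Subtype.ext (map_mul W.conjStarAlgEquiv _ _)
            map_add' := fun x y => Subtype.ext (map_add W.conjStarAlgEquiv _ _)
            map_star' := fun x => Subtype.ext (map_star W.conjStarAlgEquiv _)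
            map_smul' := fun c x => Subtype.ext (map_smul W.conjStarAlgEquiv _ _) }⟩
  · exact mem_groupVN.2 ((hW.2 _).2 (mem_groupVN.1 x.2))
  · refine mem_groupVN.2 ((hW.2 _).1 ?_)
    rw [StarAlgEquiv.apply_symm_apply]
    exact mem_groupVN.1 y.2

end Vale.Agent.P086
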