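import Vale.Agent.P086.Leinert

/-! An approximate small preimage of the unit vector under the sum of many free generators. -/

set_option linter.unusedSectionVars false

namespace Vale.Agent.P086

open Finset

variable {I : Type} [DecidableEq I] [Fintype I]

variable (I) in
/-- Alternating words of even length. -/
def evenW : ℕ → Finset (List (I × Bool))
  | 0 => {[]}
  | j + 1 => ((univ : Finset (I × I)) ×ˢ evenW j).image
      fun p => (p.1.1, true) :: (p.1.2, false) :: p.2

variable (I) in
/-- Alternating words of odd length. -/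
def oddW (j : ℕ) : Finset (List (I × Bool)) :=
  ((univ : Finset I) ×ˢ evenW I j).image fun p => (p.1, false) :: p.2

theorem cons_mem_oddW (j : ℕ) (p : I × Bool) (L : List (I × Bool)) :
    p :: L ∈ oddW I j ↔ p.2 = false ∧ L ∈ evenW I j := by
  obtain ⟨a, b⟩ := p
  simp only [oddW, mem_image, mem_product, mem_univ, true_and, List.cons.injEq, Prod.mk.injEq,
    Prod.exists]
  constructor
  · rintro ⟨_, _, h, ⟨-, rfl⟩, rfl⟩
    exact ⟨rfl, h⟩
  · rintro ⟨rfl, h⟩
    exact ⟨a, L, h, ⟨rfl, rfl⟩, rfl⟩

theorem nil_notMem_oddW (j : ℕ) : [] ∉ oddW I j := by simp [oddW]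

theorem nil_mem_evenW (j : ℕ) : [] ∈ evenW I j ↔ j = 0 := by
  cases j <;> simp [evenW]

theorem cons_mem_evenW_succ (j : ℕ) (p : I × Bool) (L : List (I × Bool)) :
    p :: L ∈ evenW I (j + 1) ↔ p.2 = true ∧ L ∈ oddW I j := by
  obtain ⟨a, b⟩ := p
  simp only [evenW, mem_image, mem_product, mem_univ, true_and, List.cons.injEq, Prod.mk.injEq,
    Prod.exists]
  constructor
  · rintro ⟨_, c, L', h, ⟨-, rfl⟩, rfl⟩
    exact ⟨rfl, (cons_mem_oddW _ _ _).2 ⟨rfl, h⟩⟩
  · rintro ⟨rfl, h⟩
    rcases L with _ | ⟨⟨c, d⟩, L⟩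
    · exact absurd h (nil_notMem_oddW j)
    · obtain ⟨rfl, h'⟩ := (cons_mem_oddW _ _ _).1 h
      exact ⟨a, c, L, h', ⟨rfl, rfl⟩, rfl⟩

theorem length_evenW {j : ℕ} : ∀ {L : List (I × Bool)}, L ∈ evenW I j → L.length = 2 * j := by
  induction j with
  | zero => intro L h; simpa [evenW] using h
  | succ j ih =>
    intro L h
    simp only [evenW, mem_image, mem_product] at h
    obtain ⟨p, ⟨-, hp⟩, rfl⟩ := h
    simp [ih hp]
    ring

theorem length_oddW {j : ℕ} {L : List (I × Bool)} (h : L ∈ oddW I j) : L.length = 2 * j + 1 := by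
  simp only [oddW, mem_image, mem_product] at h
  obtain ⟨p, ⟨-, hp⟩, rfl⟩ := h
  simp [length_evenW hp]

theorem card_evenW (j : ℕ) : (evenW I j).card ≤ Fintype.card I ^ (2 * j) := by
  induction j with
  | zero => simp [evenW]
  | succ j ih =>
    refine card_image_le.trans ?_
    rw [card_product, card_univ, Fintype.card_prod]
    calc _ ≤ Fintype.card I * Fintype.card I * Fintype.card I ^ (2 * j) := by gcongr
      _ = _ := by ring

theorem card_oddW (j : ℕ) : (oddW I j).card ≤ Fintype.card I ^ (2 * j + 1) := by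
  refine card_image_le.trans ?_
  rw [card_product, card_univ]
  calc _ ≤ Fintype.card I * Fintype.card I ^ (2 * j) := by gcongr; exact card_evenW j
    _ = _ := by ring

theorem sum_ind_oddW (j : ℕ) (y : FreeGroup I) :
    ∑ p : I, (if ((FreeGroup.of p)⁻¹ * y).toWord ∈ oddW I j then (1 : ℝ) else 0)
      = (if y.toWord ∈ evenW I (j + 1) then 1 else 0)
        + (if j = 0 then (Fintype.card I : ℝ) else Fintype.card I - 1)
          * (if y.toWord ∈ evenW I j then 1 else 0) := by
  have e : ∀ p : I, ((FreeGroup.of p)⁻¹ * y).toWord =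
      if y.toWord.head? = some (p, true) then y.toWord.tail else (p, false) :: y.toWord :=
    fun p => toWord_letter_mul (p, false) y
  simp only [e]
  rcases y.toWord with _ | ⟨⟨q, b⟩, L⟩
  · simp only [List.head?_nil, reduceCtorEq, if_false, cons_mem_oddW, true_and, nil_mem_evenW]
    split_ifs <;> simp_all
  · cases b
    · have h1 : (q, false) :: L ∉ evenW I j := by
        cases j
        · simp [evenW]
        · simp [cons_mem_evenW_succ]
      simp [cons_mem_oddW, cons_mem_evenW_succ, h1]
    · have h1 : ∀ p : I, (if (if (((q, true) :: L).head? = some (p, true)) then ((q, true) :: L).tail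
          else (p, false) :: (q, true) :: L) ∈ oddW I j then (1 : ℝ) else 0)
          = (if (q, true) :: L ∈ evenW I j then 1 else 0) + if p = q then
            ((if L ∈ oddW I j then 1 else 0) - (if (q, true) :: L ∈ evenW I j then 1 else 0))
            else 0 := by
        intro p
        by_cases hp : p = q
        · subst hp
          simp
        · simp [hp, Ne.symm hp, cons_mem_oddW]
      simp only [h1]
      rw [sum_add_distrib, sum_ite_eq', sum_const, card_univ]
      simp only [cons_mem_evenW_succ]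
      rcases j with _ | j
      · simp [evenW]
      · simp
        split_ifs <;> ring

/-- A finite combination of indicators of sets of reduced words. -/
noncomputable def comb (T : ℕ → Finset (List (I × Bool))) (a : ℕ → ℝ) (J : ℕ) :
    FreeGroup I →₀ ℝ :=
  Finsupp.onFinset (((range J).biUnion T).image FreeGroup.mk)
    (fun y => ∑ j ∈ range J, a j * if y.toWord ∈ T j then 1 else 0) (by
      intro y hy
      obtain ⟨j, hj, h⟩ := exists_ne_zero_of_sum_ne_zero hy
      refine mem_image.2 ⟨y.toWord, mem_biUnion.2 ⟨j, hj, ?_⟩, FreeGroup.mk_toWord⟩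
      by_contra h'
      simp [h'] at h)

theorem comb_apply (T : ℕ → Finset (List (I × Bool))) (a : ℕ → ℝ) (J : ℕ) (y : FreeGroup I) :
    comb T a J y = ∑ j ∈ range J, a j * if y.toWord ∈ T j then 1 else 0 := rfl

theorem sum_comb_sq_le (T : ℕ → Finset (List (I × Bool))) (a : ℕ → ℝ) (J : ℕ)
    (hT : ∀ i j L, L ∈ T i → L ∈ T j → i = j) (s : Finset (FreeGroup I)) :
    ∑ y ∈ s, comb T a J y ^ 2 ≤ ∑ j ∈ range J, a j ^ 2 * (T j).card := by
  have e : ∀ y, comb T a J y ^ 2 = ∑ j ∈ range J, a j ^ 2 * if y.toWord ∈ T j then 1 else 0 := by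
    intro y
    rw [comb_apply]
    by_cases h : ∃ j ∈ range J, y.toWord ∈ T j
    · obtain ⟨j, hj, h⟩ := h
      have k : ∀ i ∈ range J, i ≠ j → y.toWord ∉ T i := fun i _ hi h' => hi (hT _ _ _ h' h)
      rw [sum_eq_single_of_mem j hj fun i hi hij => by simp [k i hi hij],
        sum_eq_single_of_mem j hj fun i hi hij => by simp [k i hi hij]]
      simp [h]
    · push Not at h
      rw [sum_eq_zero fun i hi => by simp [h i hi], sum_eq_zero fun i hi => by simp [h i hi]]
      simp
  simp only [e]
  rw [sum_comm]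
  refine sum_le_sum fun j _ => ?_
  rw [← mul_sum, sum_boole]
  gcongr
  exact card_le_card_of_injOn FreeGroup.toWord (fun y hy => (mem_filter.1 hy).2)
    FreeGroup.toWord_injective.injOn

theorem exists_tree {ε : ℝ} (hε : 0 < ε) :
    ∃ (m : ℕ) (c e : FreeGroup (Fin m) →₀ ℝ),
      ∑ y ∈ c.support, c y ^ 2 ≤ ε ^ 2 ∧ ∑ y ∈ e.support, e y ^ 2 ≤ ε ^ 2 ∧
      ∀ y, ∑ p : Fin m, c ((FreeGroup.of p)⁻¹ * y) = (if y = 1 then 1 else 0) + e y := by
  obtain ⟨J, hJ⟩ := exists_nat_gt (4 / ε ^ 2)
  have hJ0 : (0 : ℝ) < J := lt_trans (by positivity) hJ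
  obtain ⟨m, hm⟩ := exists_nat_gt (max (J : ℝ) (J / ε ^ 2))
  have hm1 : (J : ℝ) < m := (le_max_left _ _).trans_lt hm
  have hm2 : J / ε ^ 2 < m := (le_max_right _ _).trans_lt hm
  have hm0 : (0 : ℝ) < m := hJ0.trans hm1
  set γ : ℕ → ℝ := fun j => (-1) ^ j * (1 - j / J) / m ^ (j + 1) with hγ
  set η : ℕ → ℝ := fun j => γ j + (m - 1) * γ (j + 1) with hη
  refine ⟨m, comb (oddW (Fin m)) γ J, comb (fun j => evenW (Fin m) (j + 1)) η J, ?_, ?_, ?_⟩
  · refine (sum_comb_sq_le _ _ _ (fun i j L hi hj => by
      have := length_oddW hi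
      have := length_oddW hj
      omega) _).trans ?_
    have k : ∀ j ∈ range J, γ j ^ 2 * (oddW (Fin m) j).card ≤ 1 / m := by
      intro j hj
      have h1 : ((oddW (Fin m) j).card : ℝ) ≤ m ^ (2 * j + 1) := by
        have := card_oddW (I := Fin m) j
        rw [Fintype.card_fin] at this
        exact_mod_cast this
      have h2 : (j : ℝ) / J ≤ 1 := by
        rw [div_le_one hJ0]
        exact_mod_cast (mem_range.1 hj).le
      have h3 : (0 : ℝ) ≤ j / J := by positivity
      have h4 : γ j ^ 2 ≤ 1 / m ^ (2 * j + 2) := by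
        simp only [hγ]
        rw [div_pow, mul_pow, ← pow_mul, ← pow_mul, mul_comm j 2, pow_mul, neg_one_sq, one_pow,
          one_mul, show (j + 1) * 2 = 2 * j + 2 by ring]
        gcongr
        nlinarith
      calc _ ≤ 1 / (m : ℝ) ^ (2 * j + 2) * m ^ (2 * j + 1) := by gcongr
        _ = _ := by field_simp; ring
    refine (sum_le_sum k).trans ?_
    rw [sum_const, card_range, nsmul_eq_mul, mul_one_div, div_le_iff₀ hm0]
    rw [div_lt_iff₀ (by positivity)] at hm2
    linarith
  · refine (sum_comb_sq_le _ _ _ (fun i j L hi hj => by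
      have := length_evenW hi
      have := length_evenW hj
      omega) _).trans ?_
    have k : ∀ j ∈ range J, η j ^ 2 * (evenW (Fin m) (j + 1)).card ≤ 4 / J ^ 2 := by
      intro j hj
      have h1 : ((evenW (Fin m) (j + 1)).card : ℝ) ≤ m ^ (2 * (j + 1)) := by
        have := card_evenW (I := Fin m) (j + 1)
        rw [Fintype.card_fin] at this
        exact_mod_cast this
      have h2 : ((j : ℝ) + 1) / J ≤ 1 := by
        rw [div_le_one hJ0]
        exact_mod_cast mem_range.1 hj
      have h3 : (0 : ℝ) ≤ (j + 1) / J := by positivity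
      have h5 : η j = (-1) ^ j * (1 / J + (1 - (j + 1) / J) / m) / m ^ (j + 1) := by
        simp only [hη, hγ]
        push_cast
        field_simp
        ring
      have h6 : (1 - ((j : ℝ) + 1) / J) / m ≤ 1 / J := by
        calc _ ≤ 1 / (m : ℝ) := by gcongr; linarith
          _ ≤ _ := by gcongr
      have h7 : 0 ≤ (1 - ((j : ℝ) + 1) / J) / m := div_nonneg (by linarith) hm0.le
      have h4 : η j ^ 2 ≤ (2 / J) ^ 2 / m ^ (2 * (j + 1)) := by
        rw [h5, div_pow, mul_pow, ← pow_mul, ← pow_mul, mul_comm j 2, pow_mul, neg_one_sq, one_pow,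
          one_mul, mul_comm (j + 1) 2]
        gcongr
        rw [show (2 : ℝ) / J = 1 / J + 1 / J by ring]
        linarith
      calc _ ≤ (2 / J : ℝ) ^ 2 / m ^ (2 * (j + 1)) * m ^ (2 * (j + 1)) := by gcongr
        _ = _ := by field_simp; ring
    refine (sum_le_sum k).trans ?_
    rw [sum_const, card_range, nsmul_eq_mul]
    rw [div_lt_iff₀ (by positivity)] at hJ
    calc (J : ℝ) * (4 / J ^ 2) = 4 / J := by field_simp
      _ ≤ _ := by rw [div_le_iff₀ hJ0]; linarith
  · intro y
    simp only [comb_apply]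
    rw [sum_comm]
    simp only [← mul_sum, sum_ind_oddW, Fintype.card_fin, mul_add, sum_add_distrib, hη, add_mul]
    have hJ' : J ≠ 0 := by
      rintro rfl
      simp at hJ0
    obtain ⟨J', rfl⟩ := Nat.exists_eq_succ_of_ne_zero hJ'
    have hγJ : γ (J' + 1) = 0 := by
      simp only [hγ]
      rw [div_self hJ0.ne']
      simp
    have hγ0 : γ 0 * m = 1 := by
      simp only [hγ]
      field_simp
      simp
    have e1 : ∑ j ∈ range (J' + 1), γ j * ((if j = 0 then (m : ℝ) else m - 1)
        * if y.toWord ∈ evenW (Fin m) j then 1 else 0)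
        = (if y = 1 then 1 else 0) + ∑ j ∈ range (J' + 1), (m - 1) * γ (j + 1)
          * if y.toWord ∈ evenW (Fin m) (j + 1) then 1 else 0 := by
      rw [sum_range_succ', sum_range_succ, hγJ, if_pos rfl, ← mul_assoc, hγ0, add_comm]
      simp only [evenW, mem_singleton, FreeGroup.toWord_eq_nil_iff, one_mul, mul_zero, zero_mul,
        add_zero, Nat.add_eq_zero_iff, one_ne_zero, and_false, if_false]
      congr 1
      exact sum_congr rfl fun j _ => by ring
    rw [e1]
    ring

end Vale.Agent.P086
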