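import Vale.Agent.P086.Tree

/-! Group-theoretic set-up in the free groups of rank three and four. -/

set_option linter.unusedSectionVars false

namespace Vale.Agent.P086

open Finset

/-- The shift action of a group on the free group on its underlying set. -/
def shiftAut (Γ : Type) [Group Γ] : Γ →* MulAut (FreeGroup Γ) where
  toFun γ := FreeGroup.freeGroupCongr (Equiv.mulLeft γ)
  map_one' := by
    ext1 x
    change FreeGroup.map (Equiv.mulLeft (1 : Γ)) x = x
    have : ((Equiv.mulLeft (1 : Γ)) : Γ → Γ) = id := by funext y; simp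
    rw [this, FreeGroup.map.id]
  map_mul' a b := by
    ext1 x
    change FreeGroup.map (Equiv.mulLeft (a * b)) x
      = FreeGroup.map (Equiv.mulLeft a) (FreeGroup.map (Equiv.mulLeft b) x)
    rw [FreeGroup.map.comp]
    congr 2
    funext y
    simp

/-- The free product of `Γ` with `ℤ`, as a semidirect product. -/
abbrev Wr (Γ : Type) [Group Γ] : Type := SemidirectProduct (FreeGroup Γ) Γ (shiftAut Γ)

theorem wr_conj {Γ : Type} [Group Γ] (γ : Γ) :
    (SemidirectProduct.inr γ * SemidirectProduct.inl (FreeGroup.of 1)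
      * (SemidirectProduct.inr γ)⁻¹ : Wr Γ) = SemidirectProduct.inl (FreeGroup.of γ) := by
  rw [← map_inv, ← SemidirectProduct.inl_aut]
  congr 1
  change FreeGroup.map (Equiv.mulLeft γ) (FreeGroup.of 1) = _
  simp

abbrev G3 : Type := FreeGroup (Fin 3)

abbrev G4 : Type := FreeGroup (Fin 4)

/-- The standard inclusion. -/
def inc : G3 →* G4 := FreeGroup.map Fin.castSucc

/-- The last generator. -/
def vv : G4 := FreeGroup.of (Fin.last 3)

theorem inc_of (j : Fin 3) : inc (FreeGroup.of j) = FreeGroup.of j.castSucc := FreeGroup.map.of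

/-- The homomorphism extending `f` and sending the last generator to `x`. -/
def ext4 {Γ : Type} [Group Γ] (f : G3 →* Γ) (x : Γ) : G4 →* Γ :=
  FreeGroup.lift (Fin.lastCases (motive := fun _ => Γ) x fun j => f (FreeGroup.of j))

theorem ext4_vv {Γ : Type} [Group Γ] (f : G3 →* Γ) (x : Γ) : ext4 f x vv = x := by
  rw [ext4, vv, FreeGroup.lift_apply_of, Fin.lastCases_last]

theorem ext4_inc {Γ : Type} [Group Γ] (f : G3 →* Γ) (x : Γ) (g : G3) :
    ext4 f x (inc g) = f g := by
  have : (ext4 f x).comp inc = f := by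
    ext j
    rw [MonoidHom.comp_apply, inc_of, ext4, FreeGroup.lift_apply_of, Fin.lastCases_castSucc]
  exact DFunLike.congr_fun this g

theorem hom4_ext {Γ : Type} [Group Γ] {f g : G4 →* Γ} (h1 : ∀ x, f (inc x) = g (inc x))
    (h2 : f vv = g vv) : f = g := by
  ext j
  induction j using Fin.lastCases with
  | last => exact h2
  | cast j => rw [← inc_of]; exact h1 _

theorem vv_pow_ne_one (k : ℕ) (hk : k ≠ 0) : vv ^ k ≠ 1 := by
  intro h
  have := congrArg FreeGroup.norm h
  rw [vv, FreeGroup.norm_of_pow, FreeGroup.norm_one] at this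
  exact hk this

/-- The label used for ping-pong. -/
def label (h : G4) : Option G3 :=
  hd0 (ext4 (SemidirectProduct.inr : G3 →* Wr G3) (SemidirectProduct.inl (FreeGroup.of 1)) h).left

theorem label_conj (g : G3) {k : ℕ} (hk : k ≠ 0) (h : G4) (hh : label h ≠ some g) :
    label (inc g * vv ^ k * (inc g)⁻¹ * h) = some g ∧
      label (inc g * (vv ^ k)⁻¹ * (inc g)⁻¹ * h) = some g := by
  set Ψ := ext4 (SemidirectProduct.inr : G3 →* Wr G3) (SemidirectProduct.inl (FreeGroup.of 1))
    with hΨ
  have e1 : Ψ (inc g * vv ^ k * (inc g)⁻¹) = SemidirectProduct.inl (FreeGroup.of g ^ k) := by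
    rw [← conj_pow, map_pow, map_mul, map_mul, map_inv, hΨ, ext4_inc, ext4_vv, wr_conj, map_pow]
  have e2 : Ψ (inc g * (vv ^ k)⁻¹ * (inc g)⁻¹) = SemidirectProduct.inl (FreeGroup.of g ^ k)⁻¹ := by
    have e0 : inc g * (vv ^ k)⁻¹ * (inc g)⁻¹ = (inc g * vv ^ k * (inc g)⁻¹)⁻¹ := by
      simp [mul_assoc]
    rw [e0, map_inv, e1, map_inv]
  have k1 := hd0_pow_mul g (Ψ h).left hh hk
  constructor
  · rw [label, ← hΨ, map_mul, e1, SemidirectProduct.mul_left, SemidirectProduct.left_inl,
      SemidirectProduct.right_inl, map_one]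
    exact k1.1
  · rw [label, ← hΨ, map_mul, e2, SemidirectProduct.mul_left, SemidirectProduct.left_inl,
      SemidirectProduct.right_inl, map_one]
    exact k1.2

/-- A free family in the subgroup generated by the last two generators. -/
def tt (p : ℕ) : G3 := FreeGroup.of 1 ^ p * FreeGroup.of 2 * (FreeGroup.of 1 ^ p)⁻¹

/-- The initial segments of the long word. -/
def uu : ℕ → G3
  | 0 => tt 0
  | p + 1 => uu p * FreeGroup.of 0 * ((tt p)⁻¹ * tt (p + 1))

theorem lift_uu_injective (m : ℕ) :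
    Function.Injective (FreeGroup.lift fun p : Fin m => uu p) := by
  set ψ : G3 →* Wr (Multiplicative ℤ) := FreeGroup.lift
    ![1, SemidirectProduct.inr (Multiplicative.ofAdd 1), SemidirectProduct.inl (FreeGroup.of 1)]
    with hψ
  have h0 : ψ (FreeGroup.of 0) = 1 := by simp [hψ]
  have h1 : ψ (FreeGroup.of 1) = SemidirectProduct.inr (Multiplicative.ofAdd 1) := by simp [hψ]
  have h2 : ψ (FreeGroup.of 2) = SemidirectProduct.inl (FreeGroup.of 1) := by simp [hψ]
  have ht : ∀ p : ℕ, ψ (tt p)
      = SemidirectProduct.inl (FreeGroup.of (Multiplicative.ofAdd (p : ℤ))) := by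
    intro p
    rw [tt, map_mul, map_mul, map_inv, map_pow, h1, h2, ← map_pow, wr_conj, ← ofAdd_nsmul]
    simp
  have hu : ∀ p : ℕ, ψ (uu p) = ψ (tt p) := by
    intro p
    induction p with
    | zero => rfl
    | succ p ih => rw [uu, map_mul, map_mul, map_mul, map_inv, ih, h0, mul_one, mul_inv_cancel_left]
  have e : ψ.comp (FreeGroup.lift fun p : Fin m => uu p)
      = SemidirectProduct.inl.comp
        (FreeGroup.map fun p : Fin m => Multiplicative.ofAdd ((p : ℕ) : ℤ)) := by
    ext1 p
    simp [hu, ht]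
  have hinj : Function.Injective (ψ.comp (FreeGroup.lift fun p : Fin m => uu p)) := by
    rw [e]
    refine SemidirectProduct.inl_injective.comp (FreeGroup.map_injective fun p q h => ?_)
    have := Multiplicative.ofAdd.injective h
    exact Fin.ext (by exact_mod_cast this)
  exact Function.Injective.of_comp (f := ψ) hinj

theorem exists_tree3 {ε : ℝ} (hε : 0 < ε) :
    ∃ (m : ℕ) (c e : G3 →₀ ℂ), (∀ g, star (c g) = c g) ∧
      ∑ y ∈ c.support, ‖c y‖ ^ 2 ≤ ε ^ 2 ∧ ∑ y ∈ e.support, ‖e y‖ ^ 2 ≤ ε ^ 2 ∧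
      ∑ p ∈ range m, Finsupp.equivMapDomain (Equiv.mulLeft (uu p)) c = Finsupp.single 1 1 + e := by
  obtain ⟨m, c, e, h1, h2, h3⟩ := exists_tree hε
  set θ : FreeGroup (Fin m) →* G3 := FreeGroup.lift fun p : Fin m => uu p with hθ
  set em : FreeGroup (Fin m) ↪ G3 := ⟨θ, lift_uu_injective m⟩ with hem
  set cx : (FreeGroup (Fin m) →₀ ℝ) → (G3 →₀ ℂ) := fun f =>
    (f.embDomain em).mapRange Complex.ofReal Complex.ofReal_zero with hcx
  have k1 : ∀ f y, cx f (θ y) = f y := by
    intro f y
    simp only [hcx, Finsupp.mapRange_apply]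
    exact congrArg _ (Finsupp.embDomain_apply_self em f y)
  have k2 : ∀ f g, g ∉ Set.range θ → cx f g = 0 := by
    intro f g hg
    simp only [hcx, Finsupp.mapRange_apply]
    rw [Finsupp.embDomain_of_notMem_range em f g hg, Complex.ofReal_zero]
  have k3 : ∀ f : FreeGroup (Fin m) →₀ ℝ,
      ∑ y ∈ (cx f).support, ‖cx f y‖ ^ 2 = ∑ y ∈ f.support, f y ^ 2 := by
    intro f
    have : (cx f).support = f.support.map em := by
      simp only [hcx]
      rw [Finsupp.support_mapRange_of_injective _ _ Complex.ofReal_injective,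
        Finsupp.support_embDomain]
    rw [this, sum_map]
    refine sum_congr rfl fun y _ => ?_
    change ‖cx f (θ y)‖ ^ 2 = _
    rw [k1]
    simp
  refine ⟨m, cx c, cx e, fun g => by simp [hcx], by rw [k3]; exact h1, by rw [k3]; exact h2, ?_⟩
  ext g
  rw [Finsupp.finsetSum_apply, Finsupp.add_apply, sum_range]
  simp only [Finsupp.equivMapDomain_apply, Equiv.mulLeft_symm, Equiv.coe_mulLeft]
  have hp : ∀ p : Fin m, uu p = θ (FreeGroup.of p) := fun p => by simp [hθ]
  by_cases hg : g ∈ Set.range θ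
  · obtain ⟨y, rfl⟩ := hg
    simp only [hp, ← map_inv, ← map_mul, k1]
    rw [← Complex.ofReal_sum, h3, Finsupp.single_apply]
    have : (1 = θ y) ↔ y = 1 := by
      rw [← map_one θ, (lift_uu_injective m).eq_iff, eq_comm]
    rw [if_congr this rfl rfl]
    split_ifs <;> simp
  · rw [k2 _ _ hg, Finsupp.single_eq_of_ne, add_zero]
    · refine sum_eq_zero fun p _ => k2 _ _ ?_
      rintro ⟨y, hy⟩
      exact hg ⟨FreeGroup.of p * y, by rw [map_mul, hy, hp, mul_inv_cancel_left]⟩
    · rintro rfl
      exact hg ⟨1, map_one θ⟩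

end Vale.Agent.P086
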